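import Vale.Agent.Lib.P154.NegPoint
import Vale.Agent.Lib.P154.Lat.Final

/-!
A pointwise inequality for the chi-square functional of a product with cubic corrections,
which brings the second moment into the recursion.
-/

noncomputable section

namespace Vale.Agent.Lib.P154

open Vale.Agent.Lib.Common.Kron

/-- The quantity `Z`, with the denominator `1 - A1` cleared, with cubic terms. -/
def polyZ2 (β θ γ ρ A1 C1 A2 : ℝ) : ℝ :=
  (1 - A1) * (1 - A1 - A2 + β * A1 * A2 - γ * A2 * A1 ^ 2 - ρ * A1 * A2 ^ 2) - θ * A2 * (2 * A1 - C1)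

def polyR2 (β θ γ ρ A1 C1 A2 C2 : ℝ) : ℝ :=
  (1 - A1) * polyJ A1 C1 A2 C2 - polyZ2 β θ γ ρ A1 C1 A2 * polyX A1 C1 A2 C2

/-- Nonnegativity of `polyR2` on the product of the chamber and the scaled inverted chamber. -/
def NegCert2 (μ β θ γ ρ : ℝ) : Prop :=
  ∀ t0 t1 t2 s0 s1 s2 : ℝ, 0 ≤ t0 → 0 ≤ t1 → 0 ≤ t2 → t0 + t1 + t2 = 1 →
    0 ≤ s0 → 0 ≤ s1 → 0 ≤ s2 → s0 + s1 + s2 = 1 →
    0 ≤ polyR2 β θ γ ρ (achi t1 t2) (cchi t1 t2) (μ ^ 2 * achi s1 s2) (-(μ ^ 3) * cchi s1 s2)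

/-! ### The homogeneous form -/

def coreZ2 (L b t g r h a c k a' : ℝ) : ℝ :=
  (h ^ 2 - a) * (L * (h ^ 4 * k ^ 4) - L * (a * (h ^ 2 * k ^ 4)) - L * (a' * (h ^ 4 * k ^ 2))
      + (b * ((a * a') * (h ^ 2 * k ^ 2)) - g * ((a' * a ^ 2) * k ^ 2) - r * ((a * a' ^ 2) * h ^ 2)))
    - t * ((a' * k ^ 2) * ((2 * (a * h) - c) * h ^ 3))

def coreR2 (L b t g r h a c k a' c' : ℝ) : ℝ :=
  2 * L * (((h ^ 2 - a) * coreJ h a c k a' c') * (h ^ 3 * k ^ 3))
    - coreZ2 L b t g r h a c k a' * coreX h a c k a' c'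

theorem coreR2_eq (L b t g r h a c k a' c' : ℝ) (hh : h ≠ 0) (hk : k ≠ 0) (hL : L ≠ 0) :
    coreR2 L b t g r h a c k a' c'
      = 2 * L * (h ^ 9 * k ^ 7)
        * polyR2 (b / L) (t / L) (g / L) (r / L) (a / h ^ 2) (c / h ^ 3) (a' / k ^ 2) (c' / k ^ 3) := by
  unfold coreR2 coreZ2 coreX coreJ polyR2 polyZ2 polyJ polyX
  field_simp
  ring

namespace PE2

open Vale.Agent.Lib.Common.Kron.PE
open Vale.Agent.Lib.P154.PE

def eZ2 (L b t g r : ℕ) (h a ce k a' : Vale.Agent.Lib.Common.Kron.PE) : Vale.Agent.Lib.Common.Kron.PE :=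
  sub (mul (sub (pow h 2) a)
      (add (sub (sub (mul (c L) (mul (pow h 4) (pow k 4))) (mul (c L) (mul a (mul (pow h 2) (pow k 4)))))
          (mul (c L) (mul a' (mul (pow h 4) (pow k 2)))))
        (sub (sub (mul (c b) (mul (mul a a') (mul (pow h 2) (pow k 2))))
            (mul (c g) (mul (mul a' (pow a 2)) (pow k 2))))
          (mul (c r) (mul (mul a (pow a' 2)) (pow h 2))))))
    (mul (c t) (mul (mul a' (pow k 2)) (mul (sub (mul (c 2) (mul a h)) ce) (pow h 3))))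

def eR2 (L b t g r : ℕ) (h a ce k a' ce' : Vale.Agent.Lib.Common.Kron.PE) : Vale.Agent.Lib.Common.Kron.PE :=
  sub (mul (c (2 * L)) (mul (mul (sub (pow h 2) a) (eJ h a ce k a' ce')) (mul (pow h 3) (pow k 3))))
    (mul (eZ2 L b t g r h a ce k a') (eX h a ce k a' ce'))

end PE2

open PE PE2 in
/-- The expression whose coefficients are checked: the variables are `u, v, u', v'`. -/
def ePoint2 (mn md L b t g r D1 D2 : ℕ) : Vale.Agent.Lib.Common.Kron.PE :=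
  let K := Vale.Agent.Lib.Common.Kron.PE.mul (Vale.Agent.Lib.Common.Kron.PE.c md) (eH 2 3)
  Vale.Agent.Lib.Common.Kron.PE.mul (Vale.Agent.Lib.Common.Kron.PE.pow (eH 0 1) D1)
    (Vale.Agent.Lib.Common.Kron.PE.mul (Vale.Agent.Lib.Common.Kron.PE.pow K D2)
      (eR2 L b t g r (eH 0 1) (eA 0 1) (eC 0 1) K
        (Vale.Agent.Lib.Common.Kron.PE.mul (Vale.Agent.Lib.Common.Kron.PE.c (mn ^ 2)) (eA 2 3))
        (Vale.Agent.Lib.Common.Kron.PE.neg
          (Vale.Agent.Lib.Common.Kron.PE.mul (Vale.Agent.Lib.Common.Kron.PE.c (mn ^ 3)) (eC 2 3)))))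

theorem evalR_eR2 (x : ℕ → ℝ) (L b t g r : ℕ) (h a ce k a' ce' : Vale.Agent.Lib.Common.Kron.PE) :
    Vale.Agent.Lib.Common.Kron.PE.evalR x (PE2.eR2 L b t g r h a ce k a' ce')
      = coreR2 L b t g r (Vale.Agent.Lib.Common.Kron.PE.evalR x h) (Vale.Agent.Lib.Common.Kron.PE.evalR x a)
          (Vale.Agent.Lib.Common.Kron.PE.evalR x ce) (Vale.Agent.Lib.Common.Kron.PE.evalR x k)
          (Vale.Agent.Lib.Common.Kron.PE.evalR x a') (Vale.Agent.Lib.Common.Kron.PE.evalR x ce') := by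
  simp only [PE2.eR2, PE2.eZ2, PE.eX, PE.eJ, PE.sub, PE.mul3, Vale.Agent.Lib.Common.Kron.PE.evalR, coreR2, coreZ2,
    coreX, coreJ]
  generalize Vale.Agent.Lib.Common.Kron.PE.evalR x h = H
  generalize Vale.Agent.Lib.Common.Kron.PE.evalR x a = A
  generalize Vale.Agent.Lib.Common.Kron.PE.evalR x ce = C
  generalize Vale.Agent.Lib.Common.Kron.PE.evalR x k = K
  generalize Vale.Agent.Lib.Common.Kron.PE.evalR x a' = A'
  generalize Vale.Agent.Lib.Common.Kron.PE.evalR x ce' = C'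
  push_cast
  ring

theorem evalR_ePoint2 (mn md L b t g r D1 D2 : ℕ) (u v u' v' : ℝ) :
    Vale.Agent.Lib.Common.Kron.PE.evalR (ptv u v u' v') (ePoint2 mn md L b t g r D1 D2)
      = (1 + 2 * u + v) ^ D1 * (((md : ℝ) * (1 + 2 * u' + v')) ^ D2
        * coreR2 L b t g r (1 + 2 * u + v) (u ^ 2 + u * v + v ^ 2)
          ((2 * u + v) * (u + 2 * v) * (v - u)) ((md : ℝ) * (1 + 2 * u' + v'))
          ((mn : ℝ) ^ 2 * (u' ^ 2 + u' * v' + v' ^ 2))
          (-((mn : ℝ) ^ 3 * ((2 * u' + v') * (u' + 2 * v') * (v' - u'))))) := by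
  simp only [ePoint2]
  simp only [Vale.Agent.Lib.Common.Kron.PE.evalR, evalR_eR2]
  simp only [PE.eH, PE.eA, PE.eC, PE.sub, PE.mul3, Vale.Agent.Lib.Common.Kron.PE.evalR, ptv]
  have e1 : (((1 : ℕ) : ℝ) + ((2 : ℕ) : ℝ) * u + v) = 1 + 2 * u + v := by push_cast; ring
  have e2 : (((1 : ℕ) : ℝ) + ((2 : ℕ) : ℝ) * u' + v') = 1 + 2 * u' + v' := by push_cast; ring
  have e4 : (((2 : ℕ) : ℝ) * u + v) * ((u + ((2 : ℕ) : ℝ) * v) * (v + -u)) = (2 * u + v) * (u + 2 * v) * (v - u) := by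
    push_cast; ring
  have e5 : (((2 : ℕ) : ℝ) * u' + v') * ((u' + ((2 : ℕ) : ℝ) * v') * (v' + -u'))
      = (2 * u' + v') * (u' + 2 * v') * (v' - u') := by
    push_cast; ring
  rw [e1, e2, e4, e5]
  push_cast
  rfl

theorem coreR2_nonneg_of_check {mn md L b t g r D1 D2 k : ℕ} {rad : List ℕ} (hmd : 0 < md)
    (hc : check (ePoint2 mn md L b t g r D1 D2) k rad = true) (u v u' v' : ℝ)
    (hu : 0 ≤ u) (hv : 0 ≤ v) (hu' : 0 ≤ u') (hv' : 0 ≤ v') :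
    0 ≤ coreR2 L b t g r (1 + 2 * u + v) (u ^ 2 + u * v + v ^ 2)
          ((2 * u + v) * (u + 2 * v) * (v - u)) ((md : ℝ) * (1 + 2 * u' + v'))
          ((mn : ℝ) ^ 2 * (u' ^ 2 + u' * v' + v' ^ 2))
          (-((mn : ℝ) ^ 3 * ((2 * u' + v') * (u' + 2 * v') * (v' - u')))) := by
  have h := nonneg_of_check hc (ptv u v u' v') (ptv_nonneg hu hv hu' hv')
  rw [evalR_ePoint2] at h
  have hmd' : (0 : ℝ) < md := by exact_mod_cast hmd
  have h1 : 0 < 1 + 2 * u + v := by positivity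
  have h2 : 0 < (md : ℝ) * (1 + 2 * u' + v') := by positivity
  exact nonneg_of_mul_nonneg_right (nonneg_of_mul_nonneg_right h (by positivity)) (by positivity)

/-- The open version of the certificate. -/
theorem polyR2_open_of_check {mn md L b t g r D1 D2 k : ℕ} {rad : List ℕ} (hmd : 0 < md) (hL : 0 < L)
    (hc : check (ePoint2 mn md L b t g r D1 D2) k rad = true)
    (t0 t1 t2 s0 s1 s2 : ℝ) (h0 : 0 < t0) (h1 : 0 ≤ t1) (h2 : 0 ≤ t2) (hs : t0 + t1 + t2 = 1)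
    (k0 : 0 < s0) (k1 : 0 ≤ s1) (k2 : 0 ≤ s2) (hs' : s0 + s1 + s2 = 1) :
    0 ≤ polyR2 ((b : ℝ) / L) ((t : ℝ) / L) ((g : ℝ) / L) ((r : ℝ) / L) (achi t1 t2) (cchi t1 t2)
      (((mn : ℝ) / md) ^ 2 * achi s1 s2) (-(((mn : ℝ) / md) ^ 3) * cchi s1 s2) := by
  have hmd' : (0 : ℝ) < md := by exact_mod_cast hmd
  have hL' : (0 : ℝ) < L := by exact_mod_cast hL
  set u := t1 / (2 * t0) with hu
  set v := t2 / t0 with hv
  set u' := s1 / (2 * s0) with hu'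
  set v' := s2 / s0 with hv'
  have hu0 : 0 ≤ u := by positivity
  have hv0 : 0 ≤ v := by positivity
  have hu'0 : 0 ≤ u' := by positivity
  have hv'0 : 0 ≤ v' := by positivity
  have hC := coreR2_nonneg_of_check hmd hc u v u' v' hu0 hv0 hu'0 hv'0
  have hh : 0 < 1 + 2 * u + v := by positivity
  have hk : 0 < (md : ℝ) * (1 + 2 * u' + v') := by positivity
  rw [coreR2_eq _ _ _ _ _ _ _ _ _ _ _ hh.ne' hk.ne' hL'.ne'] at hC
  have hA1 := achi_scale t0 t1 t2 h0 hs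
  have hC1 := cchi_scale t0 t1 t2 h0 hs
  have hA2 := achi_scale s0 s1 s2 k0 hs'
  have hC2 := cchi_scale s0 s1 s2 k0 hs'
  rw [← hu, ← hv] at hA1 hC1
  rw [← hu', ← hv'] at hA2 hC2
  have e2 : ((mn : ℝ) ^ 2 * (u' ^ 2 + u' * v' + v' ^ 2)) / ((md : ℝ) * (1 + 2 * u' + v')) ^ 2
      = ((mn : ℝ) / md) ^ 2 * achi s1 s2 := by
    rw [← hA2]
    field_simp
  have e3 : (-((mn : ℝ) ^ 3 * ((2 * u' + v') * (u' + 2 * v') * (v' - u')))) / ((md : ℝ) * (1 + 2 * u' + v')) ^ 3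
      = -(((mn : ℝ) / md) ^ 3) * cchi s1 s2 := by
    rw [← hC2]
    field_simp
  rw [hA1, hC1, e2, e3] at hC
  exact nonneg_of_mul_nonneg_right hC (by positivity)

/-- The certificate on the closed simplex, by continuity. -/
theorem negCert2_of_check {mn md L b t g r D1 D2 k : ℕ} {rad : List ℕ} (hmd : 0 < md) (hL : 0 < L)
    (hc : check (ePoint2 mn md L b t g r D1 D2) k rad = true) :
    NegCert2 ((mn : ℝ) / md) ((b : ℝ) / L) ((t : ℝ) / L) ((g : ℝ) / L) ((r : ℝ) / L) := by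
  intro t0 t1 t2 s0 s1 s2 h0 h1 h2 hs k0 k1 k2 hs'
  set μ := (mn : ℝ) / md
  set β := (b : ℝ) / L
  set θ := (t : ℝ) / L
  set γ := (g : ℝ) / L
  set ρ := (r : ℝ) / L
  let G : ℝ → ℝ := fun τ => polyR2 β θ γ ρ (achi (τ * t1) (τ * t2)) (cchi (τ * t1) (τ * t2))
    (μ ^ 2 * achi (τ * s1) (τ * s2)) (-(μ ^ 3) * cchi (τ * s1) (τ * s2))
  have hcont : Continuous G := by
    simp only [G, polyR2, polyZ2, polyJ, polyX, achi, cchi]
    fun_prop
  have hg : ∀ τ : ℝ, 0 < τ → τ < 1 → 0 ≤ G τ := by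
    intro τ hτ hτ1
    have h01 : 0 < 1 - τ * t1 - τ * t2 := by
      have : τ * (t1 + t2) ≤ τ * 1 := mul_le_mul_of_nonneg_left (by linarith) hτ.le
      nlinarith
    have h02 : 0 < 1 - τ * s1 - τ * s2 := by
      have : τ * (s1 + s2) ≤ τ * 1 := mul_le_mul_of_nonneg_left (by linarith) hτ.le
      nlinarith
    exact polyR2_open_of_check hmd hL hc _ _ _ _ _ _ h01 (by positivity) (by positivity) (by ring) h02
      (by positivity) (by positivity) (by ring)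
  have hlim : Filter.Tendsto G (nhdsWithin 1 (Set.Iio 1)) (nhds (G 1)) :=
    (hcont.tendsto 1).mono_left nhdsWithin_le_nhds
  have hev : ∀ᶠ τ in nhdsWithin (1 : ℝ) (Set.Iio 1), 0 ≤ G τ := by
    have : Set.Ioo (0 : ℝ) 1 ∈ nhdsWithin (1 : ℝ) (Set.Iio 1) := Ioo_mem_nhdsLT (by norm_num)
    filter_upwards [this] with τ hτ
    exact hg τ hτ.1 hτ.2
  have := ge_of_tendsto hlim hev
  simpa only [G, one_mul] using this

open Vale.Agent.Lib.P154.Lat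

/-- The invariant `v` in terms of `Z`. -/
theorem coreN2 (a b c p q r μ β θ γ ρ : ℝ) (hμ : 0 < μ) (hc : NegCert2 μ β θ γ ρ) (ha : 0 < a) (hb : 0 < b) (hcc : 0 < c)
    (hp : 0 < p) (hq : 0 < q) (hr : 0 < r) (hs : a + b + c = 1) (hs' : p + q + r = 1)
    (hp1 : p ≤ (1 + μ) / 3) (hq1 : q ≤ (1 + μ) / 3) (hr1 : r ≤ (1 + μ) / 3) :
    six F3 a b c p q r ≤ 2 - (4 / 3) * (1 - A3 a b c - A3 p q r + β * A3 a b c * A3 p q r
      - γ * A3 p q r * A3 a b c ^ 2 - ρ * A3 a b c * A3 p q r ^ 2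
      - θ * A3 p q r * (1 - 9 * K3 a b c)) := by
  obtain ⟨t0, t1, t2, h0, h1, h2, hst, hA, hC⟩ := chamber a b c ha.le hb.le hcc.le hs
  obtain ⟨s0, s1, s2, k0, k1, k2, hss, hA', hC'⟩ := chamber_capped p q r μ hμ hp1 hq1 hr1 hs'
  have hR := hc t0 t1 t2 s0 s1 s2 h0 h1 h2 hst k0 k1 k2 hss
  rw [← hA, ← hC, ← hA', ← hC'] at hR
  have h1A : A3 a b c < 1 := A3_lt_one ha hb hcc
  have hpos : 0 < a * b + b * c + c * a := by positivity
  have hk := one_sub_nineK a b c hs hpos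
  rw [hk]
  apply core_norm a b c p q r _ ha hb hcc hp hq hr hs hs'
  set A1 := A3 a b c
  set C1 := C3 a b c
  set A2 := A3 p q r
  set C2 := C3 p q r
  have hu : 0 < 1 - A1 := by linarith
  unfold polyR2 polyZ2 at hR
  have e : (1 - A1) * (1 - A1 - A2 + β * A1 * A2 - γ * A2 * A1 ^ 2 - ρ * A1 * A2 ^ 2) - θ * A2 * (2 * A1 - C1)
      = (1 - A1) * (1 - A1 - A2 + β * A1 * A2 - γ * A2 * A1 ^ 2 - ρ * A1 * A2 ^ 2
        - θ * A2 * ((2 * A1 - C1) / (1 - A1))) := by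
    field_simp
  rw [e] at hR
  have h3 : (1 - A1) * ((1 - A1 - A2 + β * A1 * A2 - γ * A2 * A1 ^ 2 - ρ * A1 * A2 ^ 2
        - θ * A2 * ((2 * A1 - C1) / (1 - A1))) * polyX A1 C1 A2 C2)
      ≤ (1 - A1) * polyJ A1 C1 A2 C2 := by
    nlinarith [hR]
  exact le_of_mul_le_mul_left h3 hu

theorem G2_smul_norm (N a b c : ℝ) (hN : N ≠ 0) (hs : a + b + c = 1) :
    G2 (N * a) (N * b) (N * c) = N * A3 a b c ^ 2 := by
  unfold G2 A3
  have e1 : N * a + N * b + N * c = N := by rw [← mul_add, ← mul_add, hs, mul_one]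
  rw [e1]
  have e2 : (N * a) ^ 2 + (N * b) ^ 2 + (N * c) ^ 2 - N * a * (N * b) - N * b * (N * c) - N * c * (N * a)
      = N ^ 2 * ((a + b + c) ^ 2 - 3 * (a * b + b * c + c * a)) := by ring
  rw [e2, hs]
  field_simp

/-- Homogeneous form. -/
theorem homN2 (a b c p q r μ β θ γ ρ : ℝ) (hμ : 0 < μ) (hc : NegCert2 μ β θ γ ρ) (ha : 0 < a) (hb : 0 < b) (hcc : 0 < c)
    (hp : 0 < p) (hq : 0 < q) (hr : 0 < r)
    (hp1 : p ≤ (1 + μ) / 3 * (p + q + r)) (hq1 : q ≤ (1 + μ) / 3 * (p + q + r))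
    (hr1 : r ≤ (1 + μ) / 3 * (p + q + r)) :
    six F3 a b c p q r
      ≤ 2 / 3 * (a + b + c) * (p + q + r) + 2 * (p + q + r) * fN a b c + 2 * (a + b + c) * fN p q r
        - 3 * β * (fN a b c * fN p q r) + 2 * θ * (fN p q r * ((a + b + c) - 9 * K3 a b c))
        + 2 * γ * (G2 a b c * fN p q r) + 2 * ρ * (fN a b c * G2 p q r) := by
  obtain ⟨N, a', b', c', hN0, hNe, ha', hb', hc', hs, rfl, rfl, rfl⟩ := norm_coord a b c ha hb hcc
  obtain ⟨M, p', q', r', hM, hMe, hp', hq', hr', hs', hpe, hqe, hre⟩ := norm_coord p q r hp hq hr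
  subst hpe hqe hre
  have e1 : N * a' + N * b' + N * c' = N := by rw [← mul_add, ← mul_add, hs, mul_one]
  have e2 : M * p' + M * q' + M * r' = M := by rw [← mul_add, ← mul_add, hs', mul_one]
  rw [e2] at hp1 hq1 hr1
  have hp1' : p' ≤ (1 + μ) / 3 := by
    have : M * p' ≤ M * ((1 + μ) / 3) := by linarith
    exact le_of_mul_le_mul_left this hM
  have hq1' : q' ≤ (1 + μ) / 3 := by
    have : M * q' ≤ M * ((1 + μ) / 3) := by linarith
    exact le_of_mul_le_mul_left this hM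
  have hr1' : r' ≤ (1 + μ) / 3 := by
    have : M * r' ≤ M * ((1 + μ) / 3) := by linarith
    exact le_of_mul_le_mul_left this hM
  have hcore := coreN2 a' b' c' p' q' r' μ β θ γ ρ hμ hc ha' hb' hc' hp' hq' hr' hs hs' hp1' hq1' hr1'
  rw [six_smul F3 (fun k x y z hk => F3_smul k x y z hk) N M _ _ _ _ _ _ hN0.ne' hM.ne']
  have hN1 : fN (N * a') (N * b') (N * c') = N * ((2 / 3) * A3 a' b' c') := by
    unfold fN
    rw [F3_smul N _ _ _ hN0.ne', e1, F3_eq_of_sum _ _ _ hs]; ring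
  have hN2 : fN (M * p') (M * q') (M * r') = M * ((2 / 3) * A3 p' q' r') := by
    unfold fN
    rw [F3_smul M _ _ _ hM.ne', e2, F3_eq_of_sum _ _ _ hs']; ring
  rw [hN1, hN2, K3_smul N _ _ _ hN0.ne', e1, e2, G2_smul_norm N _ _ _ hN0.ne' hs,
    G2_smul_norm M _ _ _ hM.ne' hs']
  have hNM : 0 < N * M := mul_pos hN0 hM
  have := mul_le_mul_of_nonneg_left hcore hNM.le
  nlinarith [this]

section
variable {ι κ : Type*} [Fintype ι] [Fintype κ]

theorem sum_bilinN2 (n f K G : ι → ℝ) (m g H : κ → ℝ) (β θ γ ρ : ℝ) :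
    ∑ t, ∑ t', (2 / 3 * n t * m t' + 2 * m t' * f t + 2 * n t * g t' - 3 * β * (f t * g t')
        + 2 * θ * (g t' * (n t - 9 * K t)) + 2 * γ * (G t * g t') + 2 * ρ * (f t * H t'))
      = 2 / 3 * (∑ t, n t) * (∑ t', m t') + 2 * (∑ t', m t') * (∑ t, f t)
        + 2 * (∑ t, n t) * (∑ t', g t') - 3 * β * ((∑ t, f t) * (∑ t', g t'))
        + 2 * θ * ((∑ t', g t') * ((∑ t, n t) - 9 * ∑ t, K t))
        + 2 * γ * ((∑ t, G t) * (∑ t', g t')) + 2 * ρ * ((∑ t, f t) * (∑ t', H t')) := by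
  simp only [Finset.sum_sub_distrib, Finset.sum_add_distrib, ← Finset.mul_sum, ← Finset.sum_mul]

/-- The chi-square bound for a product of an arbitrary signal and a capped signal. -/
theorem xx_prod_nz {l : ι → Fin 3 → ℝ} {l' : κ → Fin 3 → ℝ} {μ β θ γ ρ : ℝ} (hμ : 0 < μ) (hc : NegCert2 μ β θ γ ρ)
    (h : IsSig l) (h' : IsSig l') (hcap : Capped μ l') :
    xx (prodS l l') ≤ xx l + xx l' - 3 / 2 * β * (xx l * xx l') + θ * (xx l' * BB l)
      + γ * (mm l * xx l') + ρ * (xx l * mm l') := by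
  have e := six_sumF l h'.toW
  have b : ∑ t, ∑ t', six F3 (l t 0) (l t 1) (l t 2) (l' t' 0) (l' t' 1) (l' t' 2)
      ≤ ∑ t, ∑ t', (2 / 3 * (l t 0 + l t 1 + l t 2) * (l' t' 0 + l' t' 1 + l' t' 2)
        + 2 * (l' t' 0 + l' t' 1 + l' t' 2) * fN (l t 0) (l t 1) (l t 2)
        + 2 * (l t 0 + l t 1 + l t 2) * fN (l' t' 0) (l' t' 1) (l' t' 2)
        - 3 * β * (fN (l t 0) (l t 1) (l t 2) * fN (l' t' 0) (l' t' 1) (l' t' 2))
        + 2 * θ * (fN (l' t' 0) (l' t' 1) (l' t' 2)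
            * ((l t 0 + l t 1 + l t 2) - 9 * K3 (l t 0) (l t 1) (l t 2)))
        + 2 * γ * (G2 (l t 0) (l t 1) (l t 2) * fN (l' t' 0) (l' t' 1) (l' t' 2))
        + 2 * ρ * (fN (l t 0) (l t 1) (l t 2) * G2 (l' t' 0) (l' t' 1) (l' t' 2))) := by
    refine Finset.sum_le_sum fun t _ => Finset.sum_le_sum fun t' _ => ?_
    exact homN2 _ _ _ _ _ _ μ β θ γ ρ hμ hc (h.pos t 0) (h.pos t 1) (h.pos t 2)
      (h'.pos t' 0) (h'.pos t' 1) (h'.pos t' 2) (hcap t' 0) (hcap t' 1) (hcap t' 2)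
  rw [sum_bilinN2 (fun t => l t 0 + l t 1 + l t 2) (fun t => fN (l t 0) (l t 1) (l t 2))
    (fun t => K3 (l t 0) (l t 1) (l t 2)) (fun t => G2 (l t 0) (l t 1) (l t 2)) (fun t' => l' t' 0 + l' t' 1 + l' t' 2)
    (fun t' => fN (l' t' 0) (l' t' 1) (l' t' 2)) (fun t' => G2 (l' t' 0) (l' t' 1) (l' t' 2)) β θ γ ρ,
    sum_N h.tot, sum_N h'.tot, sum_f h.tot, sum_f h'.tot, ← e] at b
  have e2 : sumF (prodS l l') = 3 * xx (prodS l l') + 1 := by unfold xx; ring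
  rw [e2] at b
  have e3 : ∑ t, G2 (l t 0) (l t 1) (l t 2) = 3 * mm l := by unfold mm; ring
  have e4 : ∑ t', G2 (l' t' 0) (l' t' 1) (l' t' 2) = 3 * mm l' := by unfold mm; ring
  rw [e3, e4] at b
  unfold BB sumK
  nlinarith [b]

end

end Vale.Agent.Lib.P154
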