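import Vale.Agent.Lib.P154.NZ.A

/-!
A pointwise inequality for the second moment of a product.
-/

set_option linter.all false

noncomputable section

namespace Vale.Agent.Lib.P154

open Vale.Agent.Lib.Common.Kron Vale.Agent.Lib.P154.Lat

/-- One rotation class of products. -/
def cls (a b c p q r : ℝ) : ℝ :=
  G2 (a * p) (b * q) (c * r) + G2 (a * q) (b * r) (c * p) + G2 (a * r) (b * p) (c * q)

theorem six_G2 (a b c p q r : ℝ) : six G2 a b c p q r = cls a b c p q r + cls a b c p r q := rfl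

/-- The quadratic form. -/
def Qf (x y z : ℝ) : ℝ := x ^ 2 + y ^ 2 + z ^ 2 - (x * y + y * z + z * x)

theorem G2_eq_Qf (x y z : ℝ) : G2 x y z = Qf x y z ^ 2 / (x + y + z) ^ 3 := by
  unfold G2 Qf
  congr 2
  ring

/-- The homogeneous inequality for one class. -/
def coreC (L K3 K5 K6 SP SQ p0 p1 p2 q0 q1 q2 : ℝ) : ℝ :=
  let x00 := p0 * q0
  let x01 := p1 * q1
  let x02 := p2 * q2
  let x10 := p0 * q1
  let x11 := p1 * q2
  let x12 := p2 * q0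
  let x20 := p0 * q2
  let x21 := p1 * q0
  let x22 := p2 * q1
  let N0 := x00 + x01 + x02
  let N1 := x10 + x11 + x12
  let N2 := x20 + x21 + x22
  let a := Qf p0 p1 p2
  let a' := Qf q0 q1 q2
  (L * (a ^ 2 * SQ ^ 4) + L * (a' ^ 2 * SP ^ 4) + K3 * ((a * a') * (SP ^ 2 * SQ ^ 2))
      + K5 * ((a ^ 2 * a') * SQ ^ 2) + K6 * ((a * a' ^ 2) * SP ^ 2)) * (N0 * (N1 * N2)) ^ 3
    - L * ((SP ^ 3 * SQ ^ 3) * (Qf x00 x01 x02 ^ 2 * (N1 ^ 3 * N2 ^ 3) + Qf x10 x11 x12 ^ 2 * (N0 ^ 3 * N2 ^ 3)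
        + Qf x20 x21 x22 ^ 2 * (N0 ^ 3 * N1 ^ 3)))

namespace PE3

open Vale.Agent.Lib.Common.Kron.PE
open Vale.Agent.Lib.P154.PE

def eQf (x y z : Vale.Agent.Lib.Common.Kron.PE) : Vale.Agent.Lib.Common.Kron.PE :=
  sub (add (add (pow x 2) (pow y 2)) (pow z 2)) (add (add (mul x y) (mul y z)) (mul z x))

def eN (x y z : Vale.Agent.Lib.Common.Kron.PE) : Vale.Agent.Lib.Common.Kron.PE := add (add x y) z

def eC (L K3 K5 K6 : ℕ) (SP SQ p0 p1 p2 q0 q1 q2 : Vale.Agent.Lib.Common.Kron.PE) :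
    Vale.Agent.Lib.Common.Kron.PE :=
  let x00 := mul p0 q0
  let x01 := mul p1 q1
  let x02 := mul p2 q2
  let x10 := mul p0 q1
  let x11 := mul p1 q2
  let x12 := mul p2 q0
  let x20 := mul p0 q2
  let x21 := mul p1 q0
  let x22 := mul p2 q1
  let N0 := eN x00 x01 x02
  let N1 := eN x10 x11 x12
  let N2 := eN x20 x21 x22
  let a := eQf p0 p1 p2
  let a' := eQf q0 q1 q2
  sub (mul (add (add (add (add (mul (c L) (mul (pow a 2) (pow SQ 4))) (mul (c L) (mul (pow a' 2) (pow SP 4))))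
        (mul (c K3) (mul (mul a a') (mul (pow SP 2) (pow SQ 2)))))
        (mul (c K5) (mul (mul (pow a 2) a') (pow SQ 2))))
        (mul (c K6) (mul (mul a (pow a' 2)) (pow SP 2))))
      (pow (mul N0 (mul N1 N2)) 3))
    (mul (c L) (mul (mul (pow SP 3) (pow SQ 3))
      (add (add (mul (pow (eQf x00 x01 x02) 2) (mul (pow N1 3) (pow N2 3)))
        (mul (pow (eQf x10 x11 x12) 2) (mul (pow N0 3) (pow N2 3))))
        (mul (pow (eQf x20 x21 x22) 2) (mul (pow N0 3) (pow N1 3))))))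

/-- Chamber coordinates `1 + 3 u + 3 v`, `1 + 3 u`, `1`. -/
def eP0 (i j : ℕ) : Vale.Agent.Lib.Common.Kron.PE := add (add (c 1) (mul (c 3) (v i))) (mul (c 3) (v j))
def eP1 (i : ℕ) : Vale.Agent.Lib.Common.Kron.PE := add (c 1) (mul (c 3) (v i))

/-- The `Q` coordinate: `(md + mn) h' - mn P'`. -/
def eQh (mn md : ℕ) (P' : Vale.Agent.Lib.Common.Kron.PE) : Vale.Agent.Lib.Common.Kron.PE :=
  sub (mul (c (md + mn)) (eH 2 3)) (mul (c mn) P')

end PE3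

open PE PE3 in
/-- Expressions for the two orientations. -/
def eClass (mn md L K3 K5 K6 D : ℕ) (o : Bool) : Vale.Agent.Lib.Common.Kron.PE :=
  let SP := Vale.Agent.Lib.Common.Kron.PE.mul (Vale.Agent.Lib.Common.Kron.PE.c 3) (eH 0 1)
  let SQ := Vale.Agent.Lib.Common.Kron.PE.mul (Vale.Agent.Lib.Common.Kron.PE.c (3 * md)) (eH 2 3)
  let q0 := eQh mn md (eP0 2 3)
  let q1 := eQh mn md (eP1 2)
  let q2 := eQh mn md (Vale.Agent.Lib.Common.Kron.PE.c 1)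
  Vale.Agent.Lib.Common.Kron.PE.mul (Vale.Agent.Lib.Common.Kron.PE.pow (eH 0 1) D)
    (Vale.Agent.Lib.Common.Kron.PE.mul (Vale.Agent.Lib.Common.Kron.PE.pow (eH 2 3) D)
      (PE3.eC L K3 K5 K6 SP SQ (eP0 0 1) (eP1 0) (Vale.Agent.Lib.Common.Kron.PE.c 1) q0
        (cond o q2 q1) (cond o q1 q2)))

theorem evalR_eQf (x : ℕ → ℝ) (a b d : PE) :
    PE.evalR x (PE3.eQf a b d) = Qf (PE.evalR x a) (PE.evalR x b) (PE.evalR x d) := by
  simp only [PE3.eQf, PE.sub, PE.evalR, Qf]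
  ring

theorem evalR_eN (x : ℕ → ℝ) (a b d : PE) :
    PE.evalR x (PE3.eN a b d) = PE.evalR x a + PE.evalR x b + PE.evalR x d := by
  simp only [PE3.eN, PE.evalR]

theorem evalR_eC (x : ℕ → ℝ) (L K3 K5 K6 : ℕ) (SP SQ p0 p1 p2 q0 q1 q2 : Vale.Agent.Lib.Common.Kron.PE) :
    PE.evalR x (PE3.eC L K3 K5 K6 SP SQ p0 p1 p2 q0 q1 q2)
      = coreC L K3 K5 K6 (PE.evalR x SP) (PE.evalR x SQ) (PE.evalR x p0) (PE.evalR x p1) (PE.evalR x p2)
          (PE.evalR x q0) (PE.evalR x q1) (PE.evalR x q2) := by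
  simp only [PE3.eC, PE.sub, PE.evalR, coreC, evalR_eQf, evalR_eN]
  generalize PE.evalR x SP = SP'
  generalize PE.evalR x SQ = SQ'
  generalize PE.evalR x p0 = P0
  generalize PE.evalR x p1 = P1
  generalize PE.evalR x p2 = P2
  generalize PE.evalR x q0 = Q0
  generalize PE.evalR x q1 = Q1
  generalize PE.evalR x q2 = Q2
  generalize Qf P0 P1 P2 = a
  generalize Qf Q0 Q1 Q2 = a'
  generalize Qf (P0 * Q0) (P1 * Q1) (P2 * Q2) = b0
  generalize Qf (P0 * Q1) (P1 * Q2) (P2 * Q0) = b1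
  generalize Qf (P0 * Q2) (P1 * Q0) (P2 * Q1) = b2
  generalize P0 * Q0 + P1 * Q1 + P2 * Q2 = N0
  generalize P0 * Q1 + P1 * Q2 + P2 * Q0 = N1
  generalize P0 * Q2 + P1 * Q0 + P2 * Q1 = N2
  ring

theorem evalR_P0 (u v u' v' : ℝ) : PE.evalR (ptv u v u' v') (PE3.eP0 0 1) = 1 + 3 * u + 3 * v := by
  simp [PE3.eP0, PE.evalR, ptv]

theorem evalR_P1 (u v u' v' : ℝ) : PE.evalR (ptv u v u' v') (PE3.eP1 0) = 1 + 3 * u := by
  simp [PE3.eP1, PE.evalR, ptv]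

theorem evalR_H0 (u v u' v' : ℝ) : PE.evalR (ptv u v u' v') (PE.eH 0 1) = 1 + 2 * u + v := by
  simp [PE.eH, PE.evalR, ptv]

theorem evalR_H2 (u v u' v' : ℝ) : PE.evalR (ptv u v u' v') (PE.eH 2 3) = 1 + 2 * u' + v' := by
  simp [PE.eH, PE.evalR, ptv]

theorem evalR_Qh (mn md : ℕ) (P' : PE) (u v u' v' : ℝ) :
    PE.evalR (ptv u v u' v') (PE3.eQh mn md P')
      = ((md : ℝ) + mn) * (1 + 2 * u' + v') - mn * PE.evalR (ptv u v u' v') P' := by
  simp only [PE3.eQh, PE.sub, PE.evalR, evalR_H2]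
  push_cast
  ring

theorem evalR_eClass (mn md L K3 K5 K6 D : ℕ) (o : Bool) (u v u' v' : ℝ) :
    PE.evalR (ptv u v u' v') (eClass mn md L K3 K5 K6 D o)
      = (1 + 2 * u + v) ^ D * ((1 + 2 * u' + v') ^ D
        * coreC L K3 K5 K6 (3 * (1 + 2 * u + v)) (3 * (md : ℝ) * (1 + 2 * u' + v'))
            (1 + 3 * u + 3 * v) (1 + 3 * u) 1
            (((md : ℝ) + mn) * (1 + 2 * u' + v') - mn * (1 + 3 * u' + 3 * v'))
            (cond o (((md : ℝ) + mn) * (1 + 2 * u' + v') - mn) (((md : ℝ) + mn) * (1 + 2 * u' + v') - mn * (1 + 3 * u')))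
            (cond o (((md : ℝ) + mn) * (1 + 2 * u' + v') - mn * (1 + 3 * u')) (((md : ℝ) + mn) * (1 + 2 * u' + v') - mn))) := by
  have h1 : PE.evalR (ptv u v u' v') (PE3.eQh mn md (PE3.eP0 2 3))
      = ((md : ℝ) + mn) * (1 + 2 * u' + v') - mn * (1 + 3 * u' + 3 * v') := by
    rw [evalR_Qh]
    simp [PE3.eP0, PE.evalR, ptv]
  have h2 : PE.evalR (ptv u v u' v') (PE3.eQh mn md (PE3.eP1 2))
      = ((md : ℝ) + mn) * (1 + 2 * u' + v') - mn * (1 + 3 * u') := by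
    rw [evalR_Qh]
    simp [PE3.eP1, PE.evalR, ptv]
  have h3 : PE.evalR (ptv u v u' v') (PE3.eQh mn md (PE.c 1))
      = ((md : ℝ) + mn) * (1 + 2 * u' + v') - mn := by
    rw [evalR_Qh]
    simp [PE.evalR]
  simp only [eClass]
  simp only [PE.evalR, evalR_eC, evalR_H0, evalR_H2, evalR_P0, evalR_P1, h1]
  cases o
  · simp only [cond_false, h2, h3, PE.evalR]
    push_cast
    rfl
  · simp only [cond_true, h2, h3, PE.evalR]
    push_cast
    rfl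

theorem G2_smul (s x y z : ℝ) (hs : s ≠ 0) : G2 (s * x) (s * y) (s * z) = s * G2 x y z := by
  unfold G2
  have e1 : s * x + s * y + s * z = s * (x + y + z) := by ring
  have e2 : (s * x) ^ 2 + (s * y) ^ 2 + (s * z) ^ 2 - s * x * (s * y) - s * y * (s * z) - s * z * (s * x)
      = s ^ 2 * (x ^ 2 + y ^ 2 + z ^ 2 - x * y - y * z - z * x) := by ring
  rw [e1, e2]
  by_cases h : x + y + z = 0
  · rw [h]; simp
  · field_simp

theorem bm_alg (L K3 K5 K6 SP SQ a a' : ℝ) (hL : L ≠ 0) (h1 : SP ≠ 0) (h2 : SQ ≠ 0) :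
    (a / SP ^ 2) ^ 2 + (a' / SQ ^ 2) ^ 2 + K3 / L * ((a / SP ^ 2) * (a' / SQ ^ 2))
        + K5 / L * ((a / SP ^ 2) ^ 2 * (a' / SQ ^ 2)) + K6 / L * ((a / SP ^ 2) * (a' / SQ ^ 2) ^ 2)
      = 1 / (SP * SQ) * ((L * (a ^ 2 * SQ ^ 4) + L * (a' ^ 2 * SP ^ 4) + K3 * ((a * a') * (SP ^ 2 * SQ ^ 2))
      + K5 * ((a ^ 2 * a') * SQ ^ 2) + K6 * ((a * a' ^ 2) * SP ^ 2)) / (L * (SP ^ 3 * SQ ^ 3))) := by
  field_simp

theorem frac3 (b0 b1 b2 N0 N1 N2 T D : ℝ) (n0 : 0 < N0) (n1 : 0 < N1) (n2 : 0 < N2) (hD : 0 < D)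
    (h : D * (b0 ^ 2 * (N1 ^ 3 * N2 ^ 3) + b1 ^ 2 * (N0 ^ 3 * N2 ^ 3) + b2 ^ 2 * (N0 ^ 3 * N1 ^ 3))
      ≤ T * (N0 * (N1 * N2)) ^ 3) :
    b0 ^ 2 / N0 ^ 3 + b1 ^ 2 / N1 ^ 3 + b2 ^ 2 / N2 ^ 3 ≤ T / D := by
  have key : b0 ^ 2 / N0 ^ 3 + b1 ^ 2 / N1 ^ 3 + b2 ^ 2 / N2 ^ 3
      = (b0 ^ 2 * (N1 ^ 3 * N2 ^ 3) + b1 ^ 2 * (N0 ^ 3 * N2 ^ 3) + b2 ^ 2 * (N0 ^ 3 * N1 ^ 3))
        / (N0 * (N1 * N2)) ^ 3 := by
    field_simp
  rw [key, div_le_div_iff₀ (by positivity) hD]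
  linarith

/-- From the homogeneous inequality to the normalised one. -/
theorem cls_real {L K3 K5 K6 SP SQ p0 p1 p2 q0 q1 q2 : ℝ} (hL : 0 < L) (hSP : 0 < SP) (hSQ : 0 < SQ)
    (h0 : 0 < p0) (h1 : 0 < p1) (h2 : 0 < p2) (k0 : 0 < q0) (k1 : 0 < q1) (k2 : 0 < q2)
    (hR : 0 ≤ coreC L K3 K5 K6 SP SQ p0 p1 p2 q0 q1 q2) :
    cls (p0 / SP) (p1 / SP) (p2 / SP) (q0 / SQ) (q1 / SQ) (q2 / SQ)
      ≤ (Qf p0 p1 p2 / SP ^ 2) ^ 2 + (Qf q0 q1 q2 / SQ ^ 2) ^ 2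
        + K3 / L * ((Qf p0 p1 p2 / SP ^ 2) * (Qf q0 q1 q2 / SQ ^ 2))
        + K5 / L * ((Qf p0 p1 p2 / SP ^ 2) ^ 2 * (Qf q0 q1 q2 / SQ ^ 2))
        + K6 / L * ((Qf p0 p1 p2 / SP ^ 2) * (Qf q0 q1 q2 / SQ ^ 2) ^ 2) := by
  unfold coreC at hR
  simp only at hR
  set a := Qf p0 p1 p2 with ha
  set a' := Qf q0 q1 q2 with ha'
  set N0 := p0 * q0 + p1 * q1 + p2 * q2 with hN0
  set N1 := p0 * q1 + p1 * q2 + p2 * q0 with hN1
  set N2 := p0 * q2 + p1 * q0 + p2 * q1 with hN2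
  have n0 : 0 < N0 := by positivity
  have n1 : 0 < N1 := by positivity
  have n2 : 0 < N2 := by positivity
  set b0 := Qf (p0 * q0) (p1 * q1) (p2 * q2) with hb0
  set b1 := Qf (p0 * q1) (p1 * q2) (p2 * q0) with hb1
  set b2 := Qf (p0 * q2) (p1 * q0) (p2 * q1) with hb2
  have hs : (1 / (SP * SQ)) ≠ 0 := by positivity
  have e0 : ∀ x y z u v w : ℝ, G2 (x / SP * (u / SQ)) (y / SP * (v / SQ)) (z / SP * (w / SQ))
      = 1 / (SP * SQ) * G2 (x * u) (y * v) (z * w) := by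
    intro x y z u v w
    rw [← G2_smul _ _ _ _ hs]
    congr 1 <;> field_simp
  unfold cls
  rw [e0, e0, e0, G2_eq_Qf, G2_eq_Qf, G2_eq_Qf]
  simp only [← hb0, ← hb1, ← hb2, ← hN0, ← hN1, ← hN2]
  set T := L * (a ^ 2 * SQ ^ 4) + L * (a' ^ 2 * SP ^ 4) + K3 * ((a * a') * (SP ^ 2 * SQ ^ 2))
      + K5 * ((a ^ 2 * a') * SQ ^ 2) + K6 * ((a * a' ^ 2) * SP ^ 2) with hT
  have hR' : L * ((SP ^ 3 * SQ ^ 3) * (b0 ^ 2 * (N1 ^ 3 * N2 ^ 3) + b1 ^ 2 * (N0 ^ 3 * N2 ^ 3)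
      + b2 ^ 2 * (N0 ^ 3 * N1 ^ 3))) ≤ T * (N0 * (N1 * N2)) ^ 3 := by linarith
  have key2 := frac3 b0 b1 b2 N0 N1 N2 T (L * (SP ^ 3 * SQ ^ 3)) n0 n1 n2 (by positivity)
    (by rw [mul_assoc]; exact hR')
  rw [bm_alg L K3 K5 K6 SP SQ a a' hL.ne' hSP.ne' hSQ.ne', ← hT]
  have hp : (0 : ℝ) ≤ 1 / (SP * SQ) := by positivity
  calc _ = 1 / (SP * SQ) * (b0 ^ 2 / N0 ^ 3 + b1 ^ 2 / N1 ^ 3 + b2 ^ 2 / N2 ^ 3) := by ring
    _ ≤ _ := mul_le_mul_of_nonneg_left key2 hp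

theorem A3_of_norm (x y z s : ℝ) (hs : s = x + y + z) (h0 : s ≠ 0) :
    A3 (x / s) (y / s) (z / s) = Qf x y z / s ^ 2 := by
  unfold A3 Qf
  subst hs
  field_simp
  ring

/-- The bound in terms of the invariants. -/
def BM (κ3 κ5 κ6 A A' : ℝ) : ℝ := A ^ 2 + A' ^ 2 + κ3 * (A * A') + κ5 * (A ^ 2 * A') + κ6 * (A * A' ^ 2)

/-- The two orientations in the sorted case. -/
theorem cls_sorted {mn md L K3 K5 K6 D k : ℕ} {rad : List ℕ} (hmd : 0 < md) (hL : 0 < L)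
    (hc0 : check (eClass mn md L K3 K5 K6 D false) k rad = true)
    (hc1 : check (eClass mn md L K3 K5 K6 D true) k rad = true)
    {a b c x y z : ℝ} (hab : b ≤ a) (hbc : c ≤ b) (hc : 0 < c) (hs : a + b + c = 1)
    (hxy : y ≤ x) (hyz : z ≤ y) (hz : 0 < z) (hs' : x + y + z = 1)
    (hp0 : 0 < (1 + (mn : ℝ) / md) / 3 - (mn : ℝ) / md * x)
    (hp1 : 0 < (1 + (mn : ℝ) / md) / 3 - (mn : ℝ) / md * y)
    (hp2 : 0 < (1 + (mn : ℝ) / md) / 3 - (mn : ℝ) / md * z) :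
    let p := (1 + (mn : ℝ) / md) / 3 - (mn : ℝ) / md * x
    let q := (1 + (mn : ℝ) / md) / 3 - (mn : ℝ) / md * y
    let r := (1 + (mn : ℝ) / md) / 3 - (mn : ℝ) / md * z
    cls a b c p q r ≤ BM ((K3 : ℝ) / L) ((K5 : ℝ) / L) ((K6 : ℝ) / L) (A3 a b c) (A3 p q r)
      ∧ cls a b c p r q ≤ BM ((K3 : ℝ) / L) ((K5 : ℝ) / L) ((K6 : ℝ) / L) (A3 a b c) (A3 p q r) := by
  intro p q r
  have hmd' : (0 : ℝ) < md := by exact_mod_cast hmd
  have hL' : (0 : ℝ) < L := by exact_mod_cast hL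
  set μ := (mn : ℝ) / md with hμ
  have hmn : (mn : ℝ) = μ * md := by rw [hμ]; field_simp
  set u := (b - c) / (3 * c) with hu
  set v := (a - b) / (3 * c) with hv
  set u' := (y - z) / (3 * z) with hu'
  set v' := (x - y) / (3 * z) with hv'
  have hu0 : 0 ≤ u := div_nonneg (by linarith) (by positivity)
  have hv0 : 0 ≤ v := div_nonneg (by linarith) (by positivity)
  have hu'0 : 0 ≤ u' := div_nonneg (by linarith) (by positivity)
  have hv'0 : 0 ≤ v' := div_nonneg (by linarith) (by positivity)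
  have eP0 : 1 + 3 * u + 3 * v = a / c := by rw [hu, hv]; field_simp; ring
  have eP1 : 1 + 3 * u = b / c := by rw [hu]; field_simp; ring
  have eP'0 : 1 + 3 * u' + 3 * v' = x / z := by rw [hu', hv']; field_simp; ring
  have eP'1 : 1 + 3 * u' = y / z := by rw [hu']; field_simp; ring
  have eH : 3 * (1 + 2 * u + v) = 1 / c := by
    rw [hu, hv, eq_div_iff hc.ne']
    field_simp
    linarith
  have eH' : 1 + 2 * u' + v' = 1 / (3 * z) := by
    rw [hu', hv', eq_div_iff (by positivity)]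
    field_simp
    linarith
  have eSQ : 3 * (md : ℝ) * (1 + 2 * u' + v') = md / z := by
    rw [eH']; field_simp
  have eQ : ∀ w : ℝ, ((md : ℝ) + mn) * (1 + 2 * u' + v') - mn * (w / z) = (md / z) * ((1 + μ) / 3 - μ * w) := by
    intro w
    rw [eH', hmn]
    field_simp
  have eQ1 : ((md : ℝ) + mn) * (1 + 2 * u' + v') - mn = (md / z) * ((1 + μ) / 3 - μ * z) := by
    have := eQ z
    rwa [div_self hz.ne', mul_one] at this
  have hSP : 0 < 1 / c := by positivity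
  have hSQ : 0 < (md : ℝ) / z := by positivity
  have hSPe : (1 / c) = a / c + b / c + 1 := by
    rw [eq_comm]
    have : a / c + b / c + 1 = (a + b + c) / c := by field_simp
    rw [this, hs]
  have hSQe : ((md : ℝ) / z) = (md / z) * p + (md / z) * q + (md / z) * r := by
    have e : p + q + r = 1 := by
      simp only [p, q, r]
      have : (1 + μ) / 3 - μ * x + ((1 + μ) / 3 - μ * y) + ((1 + μ) / 3 - μ * z) = 1 + μ - μ * (x + y + z) := by ring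
      rw [this, hs']
      ring
    calc (md : ℝ) / z = (md / z) * (p + q + r) := by rw [e, mul_one]
      _ = _ := by ring
  have hpp : 0 < (md : ℝ) / z * p := mul_pos hSQ hp0
  have hqq : 0 < (md : ℝ) / z * q := mul_pos hSQ hp1
  have hrr : 0 < (md : ℝ) / z * r := mul_pos hSQ hp2
  have hA0 : 0 < a / c := by
    have : 0 < a := by linarith
    positivity
  have hA1 : 0 < b / c := by
    have : 0 < b := by linarith
    positivity
  have norm1 : ∀ w : ℝ, (w / c) / (1 / c) = w := by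
    intro w; field_simp
  have norm2 : (1 : ℝ) / (1 / c) = c := by field_simp
  have norm3 : ∀ w : ℝ, ((md : ℝ) / z * w) / (md / z) = w := by
    intro w; field_simp
  have hA : A3 a b c = Qf (a / c) (b / c) 1 / (1 / c) ^ 2 := by
    have := A3_of_norm (a / c) (b / c) 1 (1 / c) hSPe hSP.ne'
    rwa [norm1, norm1, norm2] at this
  have hA' : A3 p q r = Qf ((md : ℝ) / z * p) (md / z * q) (md / z * r) / (md / z) ^ 2 := by
    have := A3_of_norm ((md : ℝ) / z * p) (md / z * q) (md / z * r) (md / z) hSQe hSQ.ne'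
    rwa [norm3, norm3, norm3] at this
  have hQf : Qf ((md : ℝ) / z * p) (md / z * r) (md / z * q) = Qf ((md : ℝ) / z * p) (md / z * q) (md / z * r) := by
    unfold Qf; ring
  have hev := fun (o : Bool) (hc' : check (eClass mn md L K3 K5 K6 D o) k rad = true) => by
    have h := nonneg_of_check hc' (ptv u v u' v') (ptv_nonneg hu0 hv0 hu'0 hv'0)
    rw [evalR_eClass] at h
    exact nonneg_of_mul_nonneg_right (nonneg_of_mul_nonneg_right h (by positivity)) (by positivity)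
  constructor
  · have h := hev false hc0
    simp only [cond_false] at h
    rw [eH, eSQ, eP0, eP1, eP'0, eP'1, eQ, eQ, eQ1] at h
    have := cls_real hL' hSP hSQ hA0 hA1 one_pos hpp hqq hrr h
    rw [norm1, norm1, norm2, norm3, norm3, norm3, ← hA, ← hA'] at this
    exact this
  · have h := hev true hc1
    simp only [cond_true] at h
    rw [eH, eSQ, eP0, eP1, eP'0, eP'1, eQ, eQ, eQ1] at h
    have := cls_real hL' hSP hSQ hA0 hA1 one_pos hpp hrr hqq h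
    rw [norm1, norm1, norm2, norm3, norm3, norm3, hQf, ← hA, ← hA'] at this
    exact this

end Vale.Agent.Lib.P154
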