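import Vale.Agent.Lib.P154.NZ.B

/-!
The second moment of a product of signals.
-/

noncomputable section

namespace Vale.Agent.Lib.P154

open Vale.Agent.Lib.Common.Kron Vale.Agent.Lib.P154.Lat

theorem G2_swap12 (x y z : ℝ) : G2 x y z = G2 y x z := by
  unfold G2
  congr 2
  · ring
  · ring

theorem G2_swap23 (x y z : ℝ) : G2 x y z = G2 x z y := by
  unfold G2
  congr 2
  · ring
  · ring

theorem six_y12 (a b c p q r : ℝ) : six G2 a b c p q r = six G2 a b c q p r := by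
  unfold six; ring

theorem six_y23 (a b c p q r : ℝ) : six G2 a b c p q r = six G2 a b c p r q := by
  unfold six; ring

theorem six_x12 (a b c p q r : ℝ) : six G2 a b c p q r = six G2 b a c p q r := by
  unfold six
  rw [G2_swap12 (b * p), G2_swap12 (b * q), G2_swap12 (b * r), G2_swap12 (b * p) (a * r), G2_swap12 (b * r) (a * q),
    G2_swap12 (b * q) (a * p)]
  ring

theorem six_x23 (a b c p q r : ℝ) : six G2 a b c p q r = six G2 a c b p q r := by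
  unfold six
  rw [G2_swap23 _ (c * q), G2_swap23 _ (c * r), G2_swap23 _ (c * p), G2_swap23 _ (c * r) (b * q),
    G2_swap23 _ (c * q) (b * p), G2_swap23 _ (c * p) (b * r)]
  ring

theorem A3_sym12 (a b c : ℝ) : A3 a b c = A3 b a c := A3_swap1 a b c

theorem A3_sym23 (a b c : ℝ) : A3 a b c = A3 a c b := A3_swap2 a b c

/-- Reduction to the sorted case. -/
theorem sort_reduce {F : ℝ → ℝ → ℝ → Prop} (h12 : ∀ a b c, F a b c → F b a c) (h23 : ∀ a b c, F a b c → F a c b)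
    (hs : ∀ a b c, b ≤ a → c ≤ b → F a b c) (a b c : ℝ) : F a b c := by
  rcases le_total b a with h1 | h1
  · rcases le_total c b with h2 | h2
    · exact hs a b c h1 h2
    · rcases le_total c a with h3 | h3
      · exact h23 _ _ _ (hs a c b h3 h2)
      · exact h23 _ _ _ (h12 _ _ _ (hs c a b h3 h1))
  · rcases le_total c a with h2 | h2
    · exact h12 _ _ _ (hs b a c h1 h2)
    · rcases le_total c b with h3 | h3
      · exact h12 _ _ _ (h23 _ _ _ (hs b c a h3 h2))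
      · exact h12 _ _ _ (h23 _ _ _ (h12 _ _ _ (hs c b a h3 h1)))

/-- The six-fold inequality for normalised points. -/
theorem six_G2_norm {mn md L K3 K5 K6 D k : ℕ} {rad : List ℕ} (hmd : 0 < md) (hL : 0 < L) (hmd2 : 2 * mn ≤ md)
    (hc0 : check (eClass mn md L K3 K5 K6 D false) k rad = true)
    (hc1 : check (eClass mn md L K3 K5 K6 D true) k rad = true)
    {a b c x y z : ℝ} (ha : 0 < a) (hb : 0 < b) (hc : 0 < c) (hs : a + b + c = 1)
    (hx : 0 < x) (hy : 0 < y) (hz : 0 < z) (hs' : x + y + z = 1) :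
    six G2 a b c ((1 + (mn : ℝ) / md) / 3 - (mn : ℝ) / md * x) ((1 + (mn : ℝ) / md) / 3 - (mn : ℝ) / md * y)
        ((1 + (mn : ℝ) / md) / 3 - (mn : ℝ) / md * z)
      ≤ 2 * BM ((K3 : ℝ) / L) ((K5 : ℝ) / L) ((K6 : ℝ) / L) (A3 a b c)
        (A3 ((1 + (mn : ℝ) / md) / 3 - (mn : ℝ) / md * x) ((1 + (mn : ℝ) / md) / 3 - (mn : ℝ) / md * y)
        ((1 + (mn : ℝ) / md) / 3 - (mn : ℝ) / md * z)) := by
  have hmd' : (0 : ℝ) < md := by exact_mod_cast hmd
  set μ := (mn : ℝ) / md with hμ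
  have hμ0 : 0 ≤ μ := by positivity
  have hμ1 : μ ≤ 1 / 2 := by
    rw [hμ, div_le_iff₀ hmd']
    have : (2 : ℝ) * mn ≤ md := by exact_mod_cast hmd2
    linarith
  have pos : ∀ w : ℝ, 0 < w → w < 1 → 0 < (1 + μ) / 3 - μ * w := by
    intro w h0 h1
    have : μ * w ≤ μ * 1 := mul_le_mul_of_nonneg_left h1.le hμ0
    rcases eq_or_lt_of_le hμ0 with h | h
    · rw [← h]; norm_num
    · have : μ * w < μ * 1 := mul_lt_mul_of_pos_left h1 h
      linarith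
  -- the sorted case in the second factor
  have sorted : ∀ x y z : ℝ, y ≤ x → z ≤ y → 0 < x → 0 < y → 0 < z → x + y + z = 1 →
      ∀ a b c : ℝ, b ≤ a → c ≤ b → 0 < a → 0 < b → 0 < c → a + b + c = 1 →
      six G2 a b c ((1 + μ) / 3 - μ * x) ((1 + μ) / 3 - μ * y) ((1 + μ) / 3 - μ * z)
        ≤ 2 * BM ((K3 : ℝ) / L) ((K5 : ℝ) / L) ((K6 : ℝ) / L) (A3 a b c)
          (A3 ((1 + μ) / 3 - μ * x) ((1 + μ) / 3 - μ * y) ((1 + μ) / 3 - μ * z)) := by
    intro x y z hxy hyz hx hy hz hs' a b c hab hbc ha hb hc hs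
    have := cls_sorted (mn := mn) (md := md) (L := L) (K3 := K3) (K5 := K5) (K6 := K6) hmd hL hc0 hc1 hab hbc hc hs
      hxy hyz hz hs' (pos _ hx (by linarith)) (pos _ hy (by linarith)) (pos _ hz (by linarith))
    rw [six_G2]
    simp only at this
    linarith [this.1, this.2]
  -- all orders of the first factor
  have step1 : ∀ x y z : ℝ, y ≤ x → z ≤ y → 0 < x → 0 < y → 0 < z → x + y + z = 1 → ∀ a b c : ℝ,
      0 < a → 0 < b → 0 < c → a + b + c = 1 →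
      six G2 a b c ((1 + μ) / 3 - μ * x) ((1 + μ) / 3 - μ * y) ((1 + μ) / 3 - μ * z)
        ≤ 2 * BM ((K3 : ℝ) / L) ((K5 : ℝ) / L) ((K6 : ℝ) / L) (A3 a b c)
          (A3 ((1 + μ) / 3 - μ * x) ((1 + μ) / 3 - μ * y) ((1 + μ) / 3 - μ * z)) := by
    intro x y z hxy hyz hx hy hz hs'
    refine sort_reduce (F := fun a b c => 0 < a → 0 < b → 0 < c → a + b + c = 1 →
      six G2 a b c ((1 + μ) / 3 - μ * x) ((1 + μ) / 3 - μ * y) ((1 + μ) / 3 - μ * z)
        ≤ 2 * BM ((K3 : ℝ) / L) ((K5 : ℝ) / L) ((K6 : ℝ) / L) (A3 a b c)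
          (A3 ((1 + μ) / 3 - μ * x) ((1 + μ) / 3 - μ * y) ((1 + μ) / 3 - μ * z))) ?_ ?_ ?_
    · intro a b c h h1 h2 h3 h4
      have := h h2 h1 h3 (by linarith)
      rwa [six_x12, A3_sym12] at this
    · intro a b c h h1 h2 h3 h4
      have := h h1 h3 h2 (by linarith)
      rwa [six_x23, A3_sym23] at this
    · intro a b c h1 h2 h3 h4 h5 h6
      exact sorted x y z hxy hyz hx hy hz hs' a b c h1 h2 h3 h4 h5 h6
  -- all orders of the second factor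
  refine sort_reduce (F := fun x y z => 0 < x → 0 < y → 0 < z → x + y + z = 1 →
      six G2 a b c ((1 + μ) / 3 - μ * x) ((1 + μ) / 3 - μ * y) ((1 + μ) / 3 - μ * z)
        ≤ 2 * BM ((K3 : ℝ) / L) ((K5 : ℝ) / L) ((K6 : ℝ) / L) (A3 a b c)
          (A3 ((1 + μ) / 3 - μ * x) ((1 + μ) / 3 - μ * y) ((1 + μ) / 3 - μ * z))) ?_ ?_ ?_ x y z hx hy hz hs'
  · intro x y z h h1 h2 h3 h4
    have := h h2 h1 h3 (by linarith)
    rwa [six_y12, A3_sym12 ((1 + μ) / 3 - μ * x)] at this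
  · intro x y z h h1 h2 h3 h4
    have := h h1 h3 h2 (by linarith)
    rwa [six_y23, A3_sym23 ((1 + μ) / 3 - μ * x)] at this
  · intro x y z h1 h2 h3 h4 h5 h6
    exact step1 x y z h1 h2 h3 h4 h5 h6 a b c ha hb hc hs

/-- Certificate in closed form. -/
def MCert (μ κ3 κ5 κ6 : ℝ) : Prop :=
  ∀ a b c x y z : ℝ, 0 < a → 0 < b → 0 < c → a + b + c = 1 → 0 < x → 0 < y → 0 < z → x + y + z = 1 →
    six G2 a b c ((1 + μ) / 3 - μ * x) ((1 + μ) / 3 - μ * y) ((1 + μ) / 3 - μ * z)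
      ≤ 2 * BM κ3 κ5 κ6 (A3 a b c) (A3 ((1 + μ) / 3 - μ * x) ((1 + μ) / 3 - μ * y) ((1 + μ) / 3 - μ * z))

theorem mCert_of_check {mn md L K3 K5 K6 D k : ℕ} {rad : List ℕ} (hmd : 0 < md) (hL : 0 < L) (hmd2 : 2 * mn ≤ md)
    (hc0 : check (eClass mn md L K3 K5 K6 D false) k rad = true)
    (hc1 : check (eClass mn md L K3 K5 K6 D true) k rad = true) :
    MCert ((mn : ℝ) / md) ((K3 : ℝ) / L) ((K5 : ℝ) / L) ((K6 : ℝ) / L) :=
  fun _ _ _ _ _ _ ha hb hc hs hx hy hz hs' => six_G2_norm hmd hL hmd2 hc0 hc1 ha hb hc hs hx hy hz hs'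

/-- Strictly capped signal. -/
def CappedS {ι : Type*} (μ : ℝ) (l : ι → Fin 3 → ℝ) : Prop :=
  ∀ t i, l t i < (1 + μ) / 3 * (l t 0 + l t 1 + l t 2)

/-- Homogeneous form. -/
theorem homM (a b c p q r μ κ3 κ5 κ6 : ℝ) (hμ : 0 < μ) (hc : MCert μ κ3 κ5 κ6) (ha : 0 < a) (hb : 0 < b) (hcc : 0 < c)
    (hp : 0 < p) (hq : 0 < q) (hr : 0 < r)
    (hp1 : p < (1 + μ) / 3 * (p + q + r)) (hq1 : q < (1 + μ) / 3 * (p + q + r))
    (hr1 : r < (1 + μ) / 3 * (p + q + r)) :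
    six G2 a b c p q r
      ≤ 2 * ((p + q + r) * G2 a b c + (a + b + c) * G2 p q r + κ3 * (9 / 4) * (fN a b c * fN p q r)
        + κ5 * (3 / 2) * (G2 a b c * fN p q r) + κ6 * (3 / 2) * (fN a b c * G2 p q r)) := by
  obtain ⟨N, a', b', c', hN0, hNe, ha', hb', hc', hs, rfl, rfl, rfl⟩ := norm_coord a b c ha hb hcc
  obtain ⟨M, p', q', r', hM, hMe, hp', hq', hr', hs', hpe, hqe, hre⟩ := norm_coord p q r hp hq hr
  subst hpe hqe hre
  have e1 : N * a' + N * b' + N * c' = N := by rw [← mul_add, ← mul_add, hs, mul_one]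
  have e2 : M * p' + M * q' + M * r' = M := by rw [← mul_add, ← mul_add, hs', mul_one]
  rw [e2] at hp1 hq1 hr1
  have hlt : ∀ w : ℝ, M * w < (1 + μ) / 3 * M → 0 < ((1 + μ) / 3 - w) / μ := by
    intro w hw
    have : w < (1 + μ) / 3 := by
      have h3 : M * w < M * ((1 + μ) / 3) := by linarith
      exact lt_of_mul_lt_mul_left h3 hM.le
    exact div_pos (by linarith) hμ
  have eb : ∀ w : ℝ, (1 + μ) / 3 - μ * (((1 + μ) / 3 - w) / μ) = w := by
    intro w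
    field_simp
    ring
  have hsx : ((1 + μ) / 3 - p') / μ + ((1 + μ) / 3 - q') / μ + ((1 + μ) / 3 - r') / μ = 1 := by
    have : ((1 + μ) / 3 - p') / μ + ((1 + μ) / 3 - q') / μ + ((1 + μ) / 3 - r') / μ
        = ((1 + μ) - (p' + q' + r')) / μ := by
      field_simp
      ring
    rw [this, hs']
    field_simp
    ring
  have hcore := hc a' b' c' _ _ _ ha' hb' hc' hs (hlt _ hp1) (hlt _ hq1) (hlt _ hr1) hsx
  rw [eb, eb, eb] at hcore
  rw [six_smul G2 (fun k x y z hk => G2_smul k x y z hk) N M _ _ _ _ _ _ hN0.ne' hM.ne']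
  have hN1 : fN (N * a') (N * b') (N * c') = N * ((2 / 3) * A3 a' b' c') := by
    unfold fN
    rw [F3_smul N _ _ _ hN0.ne', e1, F3_eq_of_sum _ _ _ hs]; ring
  have hN2 : fN (M * p') (M * q') (M * r') = M * ((2 / 3) * A3 p' q' r') := by
    unfold fN
    rw [F3_smul M _ _ _ hM.ne', e2, F3_eq_of_sum _ _ _ hs']; ring
  rw [hN1, hN2, e1, e2, G2_smul_norm N _ _ _ hN0.ne' hs, G2_smul_norm M _ _ _ hM.ne' hs']
  have hNM : 0 < N * M := mul_pos hN0 hM
  have := mul_le_mul_of_nonneg_left hcore hNM.le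
  unfold BM at this
  nlinarith [this]

section
variable {ι κ : Type*} [Fintype ι] [Fintype κ]

/-- The second moment of a product. -/
theorem mm_prod_nz {l : ι → Fin 3 → ℝ} {l' : κ → Fin 3 → ℝ} {μ κ3 κ5 κ6 : ℝ} (hμ : 0 < μ) (hc : MCert μ κ3 κ5 κ6)
    (h : IsSig l) (h' : IsSig l') (hcap : CappedS μ l') :
    mm (prodS l l') ≤ mm l + mm l' + κ3 * (9 / 4) * (xx l * xx l') + κ5 * (3 / 2) * (mm l * xx l')
      + κ6 * (3 / 2) * (xx l * mm l') := by
  have e : 6 * ∑ t, ∑ t', G2 (l t 0 * l' t' 0) (l t 1 * l' t' 1) (l t 2 * l' t' 2)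
      = ∑ t, ∑ t', six G2 (l t 0) (l t 1) (l t 2) (l' t' 0) (l' t' 1) (l' t' 2) := by
    rw [Finset.mul_sum]
    exact Finset.sum_congr rfl fun t _ => six_sum h'.toW G2 _ _ _
  have e0 : ∑ p, G2 (prodS l l' p 0) (prodS l l' p 1) (prodS l l' p 2)
      = ∑ t, ∑ t', G2 (l t 0 * l' t' 0) (l t 1 * l' t' 1) (l t 2 * l' t' 2) := by
    rw [Fintype.sum_prod_type]
    rfl
  have b : ∑ t, ∑ t', six G2 (l t 0) (l t 1) (l t 2) (l' t' 0) (l' t' 1) (l' t' 2)
      ≤ ∑ t, ∑ t', (2 * ((l' t' 0 + l' t' 1 + l' t' 2) * G2 (l t 0) (l t 1) (l t 2)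
        + (l t 0 + l t 1 + l t 2) * G2 (l' t' 0) (l' t' 1) (l' t' 2)
        + κ3 * (9 / 4) * (fN (l t 0) (l t 1) (l t 2) * fN (l' t' 0) (l' t' 1) (l' t' 2))
        + κ5 * (3 / 2) * (G2 (l t 0) (l t 1) (l t 2) * fN (l' t' 0) (l' t' 1) (l' t' 2))
        + κ6 * (3 / 2) * (fN (l t 0) (l t 1) (l t 2) * G2 (l' t' 0) (l' t' 1) (l' t' 2)))) := by
    refine Finset.sum_le_sum fun t _ => Finset.sum_le_sum fun t' _ => ?_
    exact homM _ _ _ _ _ _ μ κ3 κ5 κ6 hμ hc (h.pos t 0) (h.pos t 1) (h.pos t 2)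
      (h'.pos t' 0) (h'.pos t' 1) (h'.pos t' 2) (hcap t' 0) (hcap t' 1) (hcap t' 2)
  have sumd : ∀ (n f G : ι → ℝ) (m g H : κ → ℝ) (c3 c5 c6 : ℝ),
      ∑ t, ∑ t', (2 * (m t' * G t + n t * H t' + c3 * (f t * g t') + c5 * (G t * g t') + c6 * (f t * H t')))
      = 2 * ((∑ t', m t') * (∑ t, G t) + (∑ t, n t) * (∑ t', H t') + c3 * ((∑ t, f t) * (∑ t', g t'))
        + c5 * ((∑ t, G t) * (∑ t', g t')) + c6 * ((∑ t, f t) * (∑ t', H t'))) := by
    intro n f G m g H c3 c5 c6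
    simp only [← Finset.mul_sum, Finset.sum_add_distrib, ← Finset.sum_mul, mul_add]
  rw [sumd (fun t => l t 0 + l t 1 + l t 2) (fun t => fN (l t 0) (l t 1) (l t 2))
    (fun t => G2 (l t 0) (l t 1) (l t 2)) (fun t' => l' t' 0 + l' t' 1 + l' t' 2)
    (fun t' => fN (l' t' 0) (l' t' 1) (l' t' 2)) (fun t' => G2 (l' t' 0) (l' t' 1) (l' t' 2)),
    sum_N h.tot, sum_N h'.tot, sum_f h.tot, sum_f h'.tot, ← e] at b
  have e3 : ∑ t, G2 (l t 0) (l t 1) (l t 2) = 3 * mm l := by unfold mm; ring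
  have e4 : ∑ t', G2 (l' t' 0) (l' t' 1) (l' t' 2) = 3 * mm l' := by unfold mm; ring
  have e5 : ∑ p, G2 (prodS l l' p 0) (prodS l l' p 1) (prodS l l' p 2) = 3 * mm (prodS l l') := by unfold mm; ring
  rw [e3, e4] at b
  rw [e0] at e5
  rw [e5] at b
  nlinarith [b]

end

end Vale.Agent.Lib.P154
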