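import Vale.Agent.Lib.P154.NZ.A

/-!
The channel on the functionals: the second moment and the third moment functional.
-/

noncomputable section

namespace Vale.Agent.Lib.P154

open Vale.Agent.Lib.P154.Lat

/-- The discriminant bound for `C`. -/
theorem C3_sq_le (a b c : ℝ) (ha : 0 ≤ a) (hb : 0 ≤ b) (hc : 0 ≤ c) (hs : a + b + c = 1) :
    C3 a b c ^ 2 ≤ 4 * A3 a b c ^ 3 := by
  obtain ⟨t0, t1, t2, h0, h1, h2, hst, hA, hC⟩ := chamber a b c ha hb hc hs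
  rw [hA, hC]
  unfold achi cchi
  have : 4 * ((t1 / 2) ^ 2 + t1 / 2 * t2 + t2 ^ 2) ^ 3 - ((t1 + t2) * (t1 / 2 + 2 * t2) * (t2 - t1 / 2)) ^ 2
      = 27 * ((t1 / 2) * t2 * (t1 / 2 + t2)) ^ 2 := by ring
  nlinarith [sq_nonneg ((t1 / 2) * t2 * (t1 / 2 + t2))]

theorem C3_le_T (a b c T : ℝ) (ha : 0 ≤ a) (hb : 0 ≤ b) (hc : 0 ≤ c) (hs : a + b + c = 1) (hT : 0 < T) :
    C3 a b c ≤ T * A3 a b c + A3 a b c ^ 2 / T := by
  have h1 := C3_sq_le a b c ha hb hc hs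
  have hA := A3_nonneg a b c hs
  set A := A3 a b c
  set C := C3 a b c
  have h2 : 0 ≤ T * A + A ^ 2 / T := by positivity
  by_contra hlt
  push Not at hlt
  have h3 : (T * A + A ^ 2 / T) ^ 2 < C ^ 2 := by nlinarith
  have h4 : (T * A + A ^ 2 / T) ^ 2 - 4 * A ^ 3 = (T * A - A ^ 2 / T) ^ 2 := by
    field_simp
    ring
  nlinarith [sq_nonneg (T * A - A ^ 2 / T)]

/-- The scalar inequality behind the bound on `v` after the channel. -/
theorem chan_abs_nz (μ A C T : ℝ) (h0 : 0 ≤ μ) (h1 : μ < 1) (hA0 : 0 ≤ A) (hA1 : A ≤ 1) (hT : 0 < T)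
    (hC1 : C ≤ A + A ^ 2) (hC2 : C ≤ T * A + A ^ 2 / T) :
    (2 * (μ ^ 2 * A) + μ ^ 3 * C) / (1 - μ ^ 2 * A)
      ≤ μ ^ 2 * (2 + μ * T) * A + (2 * μ ^ 4 / (1 - μ) + μ ^ 3 / T) * A ^ 2 := by
  have hu : 0 < 1 - μ := by linarith
  have hμ2 : μ ^ 2 < 1 := by nlinarith
  have hv : 0 < 1 - μ ^ 2 * A := by nlinarith [sq_nonneg μ]
  have hE : 2 * A + μ * C ≤ 2 * A * (1 + μ) := by
    have : μ * C ≤ μ * (A + A ^ 2) := mul_le_mul_of_nonneg_left hC1 h0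
    have : μ * (A + A ^ 2) ≤ μ * (2 * A) := mul_le_mul_of_nonneg_left (by nlinarith) h0
    nlinarith
  have e : (2 * (μ ^ 2 * A) + μ ^ 3 * C) / (1 - μ ^ 2 * A)
      = μ ^ 2 * (2 * A + μ * C) + μ ^ 4 * A * ((2 * A + μ * C) / (1 - μ ^ 2 * A)) := by
    field_simp
    ring
  rw [e]
  have h2 : μ ^ 2 * (2 * A + μ * C) ≤ μ ^ 2 * (2 * A + μ * (T * A + A ^ 2 / T)) := by
    apply mul_le_mul_of_nonneg_left _ (sq_nonneg μ)
    have := mul_le_mul_of_nonneg_left hC2 h0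
    linarith
  have h3 : (2 * A + μ * C) / (1 - μ ^ 2 * A) ≤ 2 * A / (1 - μ) := by
    rw [div_le_div_iff₀ hv hu]
    have hh : 1 - μ ^ 2 ≤ 1 - μ ^ 2 * A := by nlinarith [sq_nonneg μ]
    have hn : 0 ≤ 2 * A := by linarith
    calc (2 * A + μ * C) * (1 - μ) ≤ 2 * A * (1 + μ) * (1 - μ) := mul_le_mul_of_nonneg_right hE hu.le
      _ = 2 * A * (1 - μ ^ 2) := by ring
      _ ≤ 2 * A * (1 - μ ^ 2 * A) := mul_le_mul_of_nonneg_left hh hn
  have h4 : μ ^ 4 * A * ((2 * A + μ * C) / (1 - μ ^ 2 * A)) ≤ μ ^ 4 * A * (2 * A / (1 - μ)) :=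
    mul_le_mul_of_nonneg_left h3 (by positivity)
  have e2 : μ ^ 2 * (2 + μ * T) * A + (2 * μ ^ 4 / (1 - μ) + μ ^ 3 / T) * A ^ 2
      = μ ^ 2 * (2 * A + μ * (T * A + A ^ 2 / T)) + μ ^ 4 * A * (2 * A / (1 - μ)) := by
    field_simp
    ring
  rw [e2]
  linarith

/-- Pointwise: the functional of `v` after the channel. -/
theorem chan_K_nz (μ T a b c : ℝ) (h0 : 0 ≤ μ) (h1 : μ < 1 / 2) (hT : 0 < T) (ha : 0 ≤ a) (hb : 0 ≤ b) (hc : 0 ≤ c)
    (hN : 0 < a + b + c) :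
    (a + b + c) - 9 * K3 (-μ * a + (1 - -μ) / 3 * (a + b + c)) (-μ * b + (1 - -μ) / 3 * (a + b + c))
      (-μ * c + (1 - -μ) / 3 * (a + b + c))
      ≤ μ ^ 2 * (2 + μ * T) * ((3 / 2) * fN a b c) + (2 * μ ^ 4 / (1 - μ) + μ ^ 3 / T) * G2 a b c := by
  set N := a + b + c with hNe
  set a' := a / N with ha'
  set b' := b / N with hb'
  set c' := c / N with hc'
  have hae : a = N * a' := by rw [ha']; field_simp
  have hbe : b = N * b' := by rw [hb']; field_simp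
  have hce : c = N * c' := by rw [hc']; field_simp
  have ha'0 : 0 ≤ a' := by positivity
  have hb'0 : 0 ≤ b' := by positivity
  have hc'0 : 0 ≤ c' := by positivity
  have hs : a' + b' + c' = 1 := by
    rw [ha', hb', hc', ← add_div, ← add_div, ← hNe]
    exact div_self hN.ne'
  have n1 : -μ * a + (1 - -μ) / 3 * N = N * (-μ * a' + (1 - -μ) / 3 * (a' + b' + c')) := by
    rw [hs, hae]; ring
  have n2 : -μ * b + (1 - -μ) / 3 * N = N * (-μ * b' + (1 - -μ) / 3 * (a' + b' + c')) := by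
    rw [hs, hbe]; ring
  have n3 : -μ * c + (1 - -μ) / 3 * N = N * (-μ * c' + (1 - -μ) / 3 * (a' + b' + c')) := by
    rw [hs, hce]; ring
  rw [n1, n2, n3, K3_smul N _ _ _ hN.ne']
  have hf : fN a b c = N * ((2 / 3) * A3 a' b' c') := by
    unfold fN
    rw [hae, hbe, hce, F3_smul N _ _ _ hN.ne']
    have e1 : N * a' + N * b' + N * c' = N := by rw [← mul_add, ← mul_add, hs, mul_one]
    rw [e1, F3_eq_of_sum _ _ _ hs]; ring
  have hG : G2 a b c = N * A3 a' b' c' ^ 2 := by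
    rw [hae, hbe, hce]
    exact G2_smul_norm N _ _ _ hN.ne' hs
  rw [hf, hG]
  set a2 := -μ * a' + (1 - -μ) / 3 * (a' + b' + c') with ha2
  set b2 := -μ * b' + (1 - -μ) / 3 * (a' + b' + c') with hb2
  set c2 := -μ * c' + (1 - -μ) / 3 * (a' + b' + c') with hc2
  have hs2 : a2 + b2 + c2 = 1 := by rw [ha2, hb2, hc2, chan_sum, hs]
  have hle : ∀ x : ℝ, 0 ≤ x → x ≤ 1 → 0 < -μ * x + (1 - -μ) / 3 * (a' + b' + c') := by
    intro x hx0 hx1
    rw [hs]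
    have : μ * x ≤ μ * 1 := mul_le_mul_of_nonneg_left hx1 h0
    nlinarith
  have hpa : 0 < a2 := hle _ ha'0 (by linarith)
  have hpb : 0 < b2 := hle _ hb'0 (by linarith)
  have hpc : 0 < c2 := hle _ hc'0 (by linarith)
  have hpos2 : 0 < a2 * b2 + b2 * c2 + c2 * a2 := by positivity
  have hk2 := one_sub_nineK a2 b2 c2 hs2 hpos2
  have hA := A3_chan (-μ) a' b' c' hs
  have hC := C3_chan (-μ) a' b' c' hs
  rw [← ha2, ← hb2, ← hc2] at hA hC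
  rw [hA, hC] at hk2
  have hab := chan_abs_nz μ (A3 a' b' c') (C3 a' b' c') T h0 (by linarith) (A3_nonneg _ _ _ hs)
    (A3_le_one ha'0 hb'0 hc'0) hT (C3_le _ _ _ hs) (C3_le_T _ _ _ T ha'0 hb'0 hc'0 hs hT)
  have e4 : (-μ) ^ 2 = μ ^ 2 := by ring
  have e5 : (-μ) ^ 3 = -(μ ^ 3) := by ring
  rw [e4, e5] at hk2
  have e6 : (2 * (μ ^ 2 * A3 a' b' c') - -(μ ^ 3) * C3 a' b' c') = 2 * (μ ^ 2 * A3 a' b' c') + μ ^ 3 * C3 a' b' c' := by
    ring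
  rw [e6] at hk2
  rw [← hk2] at hab
  have := mul_le_mul_of_nonneg_left hab hN.le
  have e8 : N - 9 * (N * K3 a2 b2 c2) = N * (1 - 9 * K3 a2 b2 c2) := by ring
  rw [e8]
  refine this.trans (le_of_eq ?_)
  ring

section
variable {ι : Type*} [Fintype ι]

theorem sum_G2_eq (l : ι → Fin 3 → ℝ) : ∑ t, G2 (l t 0) (l t 1) (l t 2) = 3 * mm l := by
  unfold mm; ring

/-- The third-moment functional after the channel in terms of the first and second moments. -/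
theorem BB_chan_nz {l : ι → Fin 3 → ℝ} (h : WSig l) {μ T : ℝ} (h0 : 0 ≤ μ) (h1 : μ < 1 / 2) (hT : 0 < T) :
    BB (chan (-μ) l) ≤ μ ^ 2 * (2 + μ * T) * ((3 / 2) * xx l) + (2 * μ ^ 4 / (1 - μ) + μ ^ 3 / T) * mm l := by
  have key : ∑ t, ((l t 0 + l t 1 + l t 2) - 9 * K3 (chan (-μ) l t 0) (chan (-μ) l t 1) (chan (-μ) l t 2))
      ≤ ∑ t, (μ ^ 2 * (2 + μ * T) * ((3 / 2) * fN (l t 0) (l t 1) (l t 2))
        + (2 * μ ^ 4 / (1 - μ) + μ ^ 3 / T) * G2 (l t 0) (l t 1) (l t 2)) :=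
    Finset.sum_le_sum fun t _ => chan_K_nz μ T _ _ _ h0 h1 hT (h.nonneg t 0) (h.nonneg t 1) (h.nonneg t 2) (h.Npos t)
  have e1 : ∑ t, ((l t 0 + l t 1 + l t 2) - 9 * K3 (chan (-μ) l t 0) (chan (-μ) l t 1) (chan (-μ) l t 2))
      = 3 - 9 * ∑ t, K3 (chan (-μ) l t 0) (chan (-μ) l t 1) (chan (-μ) l t 2) := by
    rw [Finset.sum_sub_distrib, ← Finset.mul_sum, sum_N h.tot]
  have e2 : ∑ t, (μ ^ 2 * (2 + μ * T) * ((3 / 2) * fN (l t 0) (l t 1) (l t 2))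
        + (2 * μ ^ 4 / (1 - μ) + μ ^ 3 / T) * G2 (l t 0) (l t 1) (l t 2))
      = μ ^ 2 * (2 + μ * T) * ((3 / 2) * (3 * xx l)) + (2 * μ ^ 4 / (1 - μ) + μ ^ 3 / T) * (3 * mm l) := by
    rw [Finset.sum_add_distrib, ← Finset.mul_sum, ← Finset.mul_sum, ← Finset.mul_sum, sum_f h.tot, sum_G2_eq]
  rw [e1, e2] at key
  unfold BB sumK
  linarith [key]

theorem G2_chan (μ a b c : ℝ) :
    G2 (-μ * a + (1 - -μ) / 3 * (a + b + c)) (-μ * b + (1 - -μ) / 3 * (a + b + c))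
      (-μ * c + (1 - -μ) / 3 * (a + b + c)) = μ ^ 4 * G2 a b c := by
  unfold G2
  have e1 : -μ * a + (1 - -μ) / 3 * (a + b + c) + (-μ * b + (1 - -μ) / 3 * (a + b + c))
      + (-μ * c + (1 - -μ) / 3 * (a + b + c)) = a + b + c := by ring
  rw [e1, ← mul_div_assoc]
  congr 1
  ring

/-- The second moment after the channel. -/
theorem mm_chan (l : ι → Fin 3 → ℝ) (μ : ℝ) : mm (chan (-μ) l) = μ ^ 4 * mm l := by
  unfold mm
  simp only [chan, G2_chan]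
  rw [← Finset.mul_sum]
  ring

theorem G2_nonneg {a b c : ℝ} (ha : 0 ≤ a) (hb : 0 ≤ b) (hc : 0 ≤ c) : 0 ≤ G2 a b c := by
  unfold G2
  positivity

theorem mm_nonneg {l : ι → Fin 3 → ℝ} (h : WSig l) : 0 ≤ mm l := by
  unfold mm
  exact mul_nonneg (by norm_num) (Finset.sum_nonneg fun t _ => G2_nonneg (h.nonneg t 0) (h.nonneg t 1) (h.nonneg t 2))

theorem mm_powS_zero (l : ι → Fin 3 → ℝ) : mm (powS 0 l) = 0 := by
  unfold mm
  rw [Fintype.sum_unique]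
  simp [powS, G2]

theorem mm_prod_comm {κ : Type*} [Fintype κ] (l : ι → Fin 3 → ℝ) (l' : κ → Fin 3 → ℝ) :
    mm (prodS l l') = mm (prodS l' l) := by
  unfold mm prodS
  congr 1
  rw [← Equiv.sum_comp (Equiv.prodComm ι κ)]
  refine Finset.sum_congr rfl fun p _ => ?_
  simp only [Equiv.prodComm_apply, Prod.fst_swap, Prod.snd_swap, mul_comm]

theorem mm_powS_succ (k : ℕ) (l : ι → Fin 3 → ℝ) : mm (powS (k + 1) l) = mm (prodS l (powS k l)) := by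
  unfold mm
  congr 1
  exact sum_powS_succ G2 k l

end

end Vale.Agent.Lib.P154
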