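import Vale.Agent.Lib.P154.NZ.C
import Vale.Agent.Lib.P154.NZ.D
import Vale.Agent.Lib.P154.NegTree
import Vale.Agent.Lib.P154.NegReg

/-!
Closing the recursion near zero: from small first and second moment at some level
to convergence of the chi-square functional.
-/

noncomputable section

open Filter Topology

namespace Vale.Agent.Lib.P154

open Vale.Agent.Lib.P154.Lat

/-- Scalar data over the rationals. -/
structure SP where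
  d : ℕ
  β : ℚ
  θ : ℚ
  γ : ℚ
  ρ : ℚ
  κ3 : ℚ
  κ5 : ℚ
  κ6 : ℚ
  μh : ℚ
  T : ℚ
  κ : ℚ
  a0 : ℚ
  ξ : ℚ

namespace SP

variable (P : SP)

def y0 : ℚ := P.a0 / P.d
def m0 : ℚ := P.κ * P.a0 ^ 2 / (P.d : ℚ) ^ 2
def b0 : ℚ := (2 + P.μh * P.T) * P.y0
  + (2 / ((P.d : ℚ) ^ 2 * (1 - P.μh)) + P.μh / (P.d * P.T)) * (P.κ * P.a0 ^ 2)

/-- The pair of recursions for the deficit and the second moment. -/
def nxt (k : ℕ) (x : ℚ × ℚ) : ℚ × ℚ :=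
  (x.1 + P.β * k * P.y0 ^ 2 - P.θ * k * P.y0 * P.b0
      - (P.β * P.y0 * x.1 + P.ρ * k * P.y0 * P.m0 + P.γ * P.y0 * x.2),
    x.2 * (1 + P.κ5 * P.y0) + P.m0 + P.κ3 * k * P.y0 ^ 2 + P.κ6 * k * P.y0 * P.m0)

def gM : ℕ → ℚ × ℚ
  | 0 => (0, 0)
  | k + 1 => P.nxt k (gM k)

/-- Decidable conditions. -/
def check : Bool :=
  decide (1 ≤ P.d) && decide (0 ≤ P.β) && decide (0 ≤ P.θ) && decide (0 ≤ P.γ) && decide (0 ≤ P.ρ)
    && decide (0 ≤ P.κ3) && decide (0 ≤ P.κ5) && decide (0 ≤ P.κ6)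
    && decide (0 ≤ P.μh) && decide (P.μh < 1) && decide (0 < P.T) && decide (0 ≤ P.κ)
    && decide (0 < P.a0) && decide (0 < P.ξ)
    && decide (P.β * P.a0 ≤ 1) && decide (P.ξ * P.a0 ≤ 1)
    && (List.range (P.d + 1)).all (fun k => decide (0 ≤ (P.gM k).1))
    && decide (P.ξ * P.a0 ^ 2 ≤ (P.gM P.d).1)
    && decide ((P.gM P.d).2 ≤ P.κ * P.a0 ^ 2 * (1 - P.ξ * P.a0) ^ 2)

/-- Facts extracted from the check. -/
structure Good (P : SP) : Prop where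
  hd : 1 ≤ P.d
  hβ : (0 : ℝ) ≤ P.β
  hθ : (0 : ℝ) ≤ P.θ
  hγ : (0 : ℝ) ≤ P.γ
  hρ : (0 : ℝ) ≤ P.ρ
  hκ3 : (0 : ℝ) ≤ P.κ3
  hκ5 : (0 : ℝ) ≤ P.κ5
  hκ6 : (0 : ℝ) ≤ P.κ6
  hμh0 : (0 : ℝ) ≤ P.μh
  hμh1 : (P.μh : ℝ) < 1
  hT : (0 : ℝ) < P.T
  hκ : (0 : ℝ) ≤ P.κ
  ha0 : (0 : ℝ) < P.a0
  hξ : (0 : ℝ) < P.ξ
  hβa : (P.β : ℝ) * P.a0 ≤ 1
  hξa : (P.ξ : ℝ) * P.a0 ≤ 1
  hg : ∀ k, k ≤ P.d → (0 : ℝ) ≤ (P.gM k).1
  hξg : (P.ξ : ℝ) * (P.a0 : ℝ) ^ 2 ≤ ((P.gM P.d).1 : ℚ)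
  hM : (((P.gM P.d).2 : ℚ) : ℝ) ≤ P.κ * (P.a0 : ℝ) ^ 2 * (1 - P.ξ * P.a0) ^ 2

theorem good_of_check (h : P.check = true) : P.Good := by
  simp only [check, Bool.and_eq_true, decide_eq_true_eq, List.all_eq_true, List.mem_range] at h
  obtain ⟨⟨⟨⟨⟨⟨⟨⟨⟨⟨⟨⟨⟨⟨⟨⟨⟨⟨h1, h2⟩, h3⟩, h4⟩, h5⟩, h6⟩, h7⟩, h8⟩, h9⟩, h10⟩, h11⟩, h12⟩, h13⟩, h14⟩, h15⟩, h16⟩, h17⟩, h18⟩, h19⟩ := h
  refine ⟨h1, by exact_mod_cast h2, by exact_mod_cast h3, by exact_mod_cast h4, by exact_mod_cast h5,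
    by exact_mod_cast h6, by exact_mod_cast h7, by exact_mod_cast h8, by exact_mod_cast h9,
    by exact_mod_cast h10, by exact_mod_cast h11, by exact_mod_cast h12, by exact_mod_cast h13,
    by exact_mod_cast h14, by exact_mod_cast h15, by exact_mod_cast h16, ?_, by exact_mod_cast h18,
    by exact_mod_cast h19⟩
  intro k hk
  exact_mod_cast h17 k (by omega)

variable {P}

theorem Good.d_pos (hP : P.Good) : (0 : ℝ) < P.d := by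
  have := hP.hd
  exact_mod_cast this

theorem y0_cast : ((P.y0 : ℚ) : ℝ) = (P.a0 : ℝ) / P.d := by
  simp [y0]

theorem m0_cast : ((P.m0 : ℚ) : ℝ) = (P.κ : ℝ) * (P.a0 : ℝ) ^ 2 / (P.d : ℝ) ^ 2 := by
  simp [m0]

theorem b0_cast : ((P.b0 : ℚ) : ℝ) = (2 + (P.μh : ℝ) * P.T) * ((P.a0 : ℝ) / P.d)
    + (2 / ((P.d : ℝ) ^ 2 * (1 - P.μh)) + (P.μh : ℝ) / (P.d * P.T)) * ((P.κ : ℝ) * (P.a0 : ℝ) ^ 2) := by
  simp [b0, y0]

theorem Good.y0_nonneg (hP : P.Good) : (0 : ℝ) ≤ P.y0 := by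
  rw [y0_cast]
  have := hP.d_pos
  have := hP.ha0
  positivity

theorem Good.m0_nonneg (hP : P.Good) : (0 : ℝ) ≤ P.m0 := by
  rw [m0_cast]
  have := hP.d_pos
  have := hP.ha0
  have := hP.hκ
  positivity

theorem Good.b0_nonneg (hP : P.Good) : (0 : ℝ) ≤ P.b0 := by
  rw [b0_cast]
  have := hP.d_pos
  have := hP.ha0
  have := hP.hκ
  have := hP.hμh0
  have := hP.hT
  have h1 : (0 : ℝ) < 1 - P.μh := by linarith [hP.hμh1]
  positivity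

theorem Good.M_nonneg (hP : P.Good) (k : ℕ) : (0 : ℝ) ≤ (P.gM k).2 := by
  induction k with
  | zero => simp [gM]
  | succ k ih =>
    simp only [gM, nxt]
    push_cast
    have h1 := hP.y0_nonneg
    have h2 := hP.m0_nonneg
    have h3 := hP.hκ3
    have h4 := hP.hκ5
    have h5 := hP.hκ6
    positivity

end SP

/-- Monotonicity of the scalar step. -/
theorem phi_mono {β θ γ ρ a A y Y b B m M m' M' : ℝ} (hβ : 0 ≤ β) (hθ : 0 ≤ θ) (hγ : 0 ≤ γ) (hρ : 0 ≤ ρ)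
    (ha : a ≤ A) (hy : y ≤ Y) (hb : b ≤ B) (hm : m ≤ M) (hm' : m' ≤ M')
    (y0 : 0 ≤ y) (b0 : 0 ≤ b) (m'0 : 0 ≤ m') (A0 : 0 ≤ A) (Y0 : 0 ≤ Y) (M0 : 0 ≤ M)
    (h1 : β * A ≤ 1) (h2 : β * Y ≤ 1) :
    a + y - β * (a * y) + θ * (y * b) + γ * (m * y) + ρ * (a * m')
      ≤ A + Y - β * (A * Y) + θ * (Y * B) + γ * (M * Y) + ρ * (A * M') := by
  have hby : β * y ≤ 1 := (mul_le_mul_of_nonneg_left hy hβ).trans h2
  have e : (A + Y - β * (A * Y) + θ * (Y * B) + γ * (M * Y) + ρ * (A * M'))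
      - (a + y - β * (a * y) + θ * (y * b) + γ * (m * y) + ρ * (a * m'))
      = (A - a) * (1 - β * y) + (Y - y) * (1 - β * A) + θ * (Y * (B - b) + (Y - y) * b)
        + γ * (M * (Y - y) + (M - m) * y) + ρ * (A * (M' - m') + (A - a) * m') := by ring
  have t1 : 0 ≤ (A - a) * (1 - β * y) := mul_nonneg (by linarith) (by linarith)
  have t2 : 0 ≤ (Y - y) * (1 - β * A) := mul_nonneg (by linarith) (by linarith)
  have t3 : 0 ≤ θ * (Y * (B - b) + (Y - y) * b) :=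
    mul_nonneg hθ (add_nonneg (mul_nonneg Y0 (by linarith)) (mul_nonneg (by linarith) b0))
  have t4 : 0 ≤ γ * (M * (Y - y) + (M - m) * y) :=
    mul_nonneg hγ (add_nonneg (mul_nonneg M0 (by linarith)) (mul_nonneg (by linarith) y0))
  have t5 : 0 ≤ ρ * (A * (M' - m') + (A - a) * m') :=
    mul_nonneg hρ (add_nonneg (mul_nonneg A0 (by linarith)) (mul_nonneg (by linarith) m'0))
  linarith

/-- The bound for the third-moment functional after the channel, as a scalar statement. -/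
theorem chan_b_bound {μ d μh T κ a0 t a m : ℝ} (h0 : 0 ≤ μ) (h1 : μ < 1 / 2) (hμh : μ ≤ μh) (hμh1 : μh < 1) (hT : 0 < T)
    (hd : 0 < d) (hKS : d * μ ^ 2 ≤ 1) (hκ : 0 ≤ κ) (ha0 : 0 < a0) (ht0 : 0 ≤ t) (ht1 : t ≤ 1) (ha0' : 0 ≤ a) (hm0 : 0 ≤ m)
    (ha : a ≤ t * a0) (hm : m ≤ κ * (t * a0) ^ 2) :
    μ ^ 2 * (2 + μ * T) * a + (2 * μ ^ 4 / (1 - μ) + μ ^ 3 / T) * m
      ≤ t * ((2 + μh * T) * (a0 / d) + (2 / (d ^ 2 * (1 - μh)) + μh / (d * T)) * (κ * a0 ^ 2)) := by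
  have hμh0 : 0 ≤ μh := h0.trans hμh
  have hμ2 : μ ^ 2 ≤ 1 / d := by
    rw [le_div_iff₀ hd]; linarith
  have hμ4 : μ ^ 4 ≤ 1 / d ^ 2 := by
    have : μ ^ 4 = (μ ^ 2) ^ 2 := by ring
    rw [this]
    have := pow_le_pow_left₀ (sq_nonneg μ) hμ2 2
    rwa [div_pow, one_pow] at this
  have hc1 : μ ^ 2 * (2 + μ * T) ≤ (1 / d) * (2 + μh * T) := by
    refine mul_le_mul hμ2 ?_ ?_ (by positivity)
    · have := mul_le_mul_of_nonneg_right hμh hT.le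
      linarith
    · have : 0 ≤ μ * T := mul_nonneg h0 hT.le
      linarith
  have hu : 0 < 1 - μh := by linarith
  have hc2 : 2 * μ ^ 4 / (1 - μ) ≤ 2 / (d ^ 2 * (1 - μh)) := by
    rw [div_le_div_iff₀ (by linarith) (by positivity)]
    have h5 : μ ^ 4 * d ^ 2 ≤ 1 := by
      have := mul_le_mul_of_nonneg_right hμ4 (sq_nonneg d)
      rwa [one_div, inv_mul_cancel₀ (by positivity)] at this
    have h6 : 1 - μh ≤ 1 - μ := by linarith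
    have h7 : 2 * μ ^ 4 * (d ^ 2 * (1 - μh)) = 2 * (μ ^ 4 * d ^ 2) * (1 - μh) := by ring
    rw [h7]
    have h8 : (μ ^ 4 * d ^ 2) * (1 - μh) ≤ 1 * (1 - μ) := mul_le_mul h5 h6 hu.le (by norm_num)
    linarith
  have hc3 : μ ^ 3 / T ≤ μh / (d * T) := by
    rw [div_le_div_iff₀ hT (by positivity)]
    have h5 : μ ^ 2 * d ≤ 1 := by rw [mul_comm]; exact hKS
    have h6 : μ ^ 3 * d ≤ μh := by
      have : μ ^ 3 * d = μ * (μ ^ 2 * d) := by ring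
      rw [this]
      calc μ * (μ ^ 2 * d) ≤ μ * 1 := mul_le_mul_of_nonneg_left h5 h0
        _ ≤ _ := by linarith
    calc μ ^ 3 * (d * T) = (μ ^ 3 * d) * T := by ring
      _ ≤ μh * T := mul_le_mul_of_nonneg_right h6 hT.le
  have hc4 : 2 * μ ^ 4 / (1 - μ) + μ ^ 3 / T ≤ 2 / (d ^ 2 * (1 - μh)) + μh / (d * T) := add_le_add hc2 hc3
  have hc50 : 0 ≤ 2 * μ ^ 4 / (1 - μ) + μ ^ 3 / T := by
    have : 0 < 1 - μ := by linarith
    positivity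
  have hc60 : 0 ≤ 2 / (d ^ 2 * (1 - μh)) + μh / (d * T) := by positivity
  have h3 : μ ^ 2 * (2 + μ * T) * a ≤ (1 / d) * (2 + μh * T) * (t * a0) :=
    mul_le_mul hc1 ha ha0' (by positivity)
  have h4 : (2 * μ ^ 4 / (1 - μ) + μ ^ 3 / T) * m ≤ (2 / (d ^ 2 * (1 - μh)) + μh / (d * T)) * (κ * (t * a0) ^ 2) :=
    mul_le_mul hc4 hm hm0 hc60
  have h5 : (2 / (d ^ 2 * (1 - μh)) + μh / (d * T)) * (κ * (t * a0) ^ 2)
      ≤ (2 / (d ^ 2 * (1 - μh)) + μh / (d * T)) * (κ * (t * a0 ^ 2)) := by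
    refine mul_le_mul_of_nonneg_left ?_ hc60
    refine mul_le_mul_of_nonneg_left ?_ hκ
    have : t ^ 2 ≤ t := by nlinarith
    have e : (t * a0) ^ 2 = t ^ 2 * a0 ^ 2 := by ring
    rw [e]
    exact mul_le_mul_of_nonneg_right this (sq_nonneg _)
  have e : t * ((2 + μh * T) * (a0 / d) + (2 / (d ^ 2 * (1 - μh)) + μh / (d * T)) * (κ * a0 ^ 2))
      = (1 / d) * (2 + μh * T) * (t * a0) + (2 / (d ^ 2 * (1 - μh)) + μh / (d * T)) * (κ * (t * a0 ^ 2)) := by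
    ring
  rw [e]
  linarith

/-- The algebra of the first-moment step. -/
theorem x_alg {β θ γ ρ t k y0 b0 m0 g M : ℝ} (hβ : 0 ≤ β) (hθ : 0 ≤ θ) (hγ : 0 ≤ γ) (hρ : 0 ≤ ρ)
    (ht0 : 0 ≤ t) (ht1 : t ≤ 1) (hk : 0 ≤ k) (hy : 0 ≤ y0) (hm : 0 ≤ m0) (hg : 0 ≤ g) (hM : 0 ≤ M) :
    (t * k * y0 - t ^ 2 * g) + t * y0 - β * ((t * k * y0 - t ^ 2 * g) * (t * y0)) + θ * ((t * y0) * (t * k * b0))
        + γ * ((t ^ 2 * M) * (t * y0)) + ρ * ((t * k * y0 - t ^ 2 * g) * (t ^ 2 * m0))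
      ≤ t * (k + 1) * y0
        - t ^ 2 * (g + β * k * y0 ^ 2 - θ * k * y0 * b0 - (β * y0 * g + ρ * k * y0 * m0 + γ * y0 * M)) := by
  have hk3 : t ^ 3 ≤ t ^ 2 := by nlinarith [sq_nonneg t]
  have hn : 0 ≤ β * y0 * g + ρ * k * y0 * m0 + γ * y0 * M := by positivity
  have hn2 : 0 ≤ t ^ 4 * (ρ * g * m0) := by positivity
  have h8 := mul_le_mul_of_nonneg_right hk3 hn
  have e : (t * (k + 1) * y0
        - t ^ 2 * (g + β * k * y0 ^ 2 - θ * k * y0 * b0 - (β * y0 * g + ρ * k * y0 * m0 + γ * y0 * M)))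
      - ((t * k * y0 - t ^ 2 * g) + t * y0 - β * ((t * k * y0 - t ^ 2 * g) * (t * y0)) + θ * ((t * y0) * (t * k * b0))
        + γ * ((t ^ 2 * M) * (t * y0)) + ρ * ((t * k * y0 - t ^ 2 * g) * (t ^ 2 * m0)))
      = t ^ 2 * (β * y0 * g + ρ * k * y0 * m0 + γ * y0 * M) - t ^ 3 * (β * y0 * g + ρ * k * y0 * m0 + γ * y0 * M)
        + t ^ 4 * (ρ * g * m0) := by ring
  linarith

/-- The algebra of the second-moment step. -/
theorem m_alg {κ3 κ5 κ6 t k y0 m0 M a y m mc : ℝ} (hκ3 : 0 ≤ κ3) (hκ5 : 0 ≤ κ5) (hκ6 : 0 ≤ κ6)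
    (ht0 : 0 ≤ t) (ht1 : t ≤ 1) (hk : 0 ≤ k) (hy0 : 0 ≤ y0) (hm0 : 0 ≤ m0) (hM : 0 ≤ M)
    (ha : a ≤ t * k * y0) (hy : y ≤ t * y0) (hm : m ≤ t ^ 2 * M) (hmc : mc ≤ t ^ 2 * m0)
    (hy' : 0 ≤ y) (hmc' : 0 ≤ mc) :
    m + mc + κ3 * (a * y) + κ5 * (m * y) + κ6 * (a * mc)
      ≤ t ^ 2 * (M * (1 + κ5 * y0) + m0 + κ3 * k * y0 ^ 2 + κ6 * k * y0 * m0) := by
  have t1 : a * y ≤ (t * k * y0) * (t * y0) := mul_le_mul ha hy hy' (by positivity)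
  have t2 : m * y ≤ (t ^ 2 * M) * (t * y0) := mul_le_mul hm hy hy' (by positivity)
  have t3 : a * mc ≤ (t * k * y0) * (t ^ 2 * m0) := mul_le_mul ha hmc hmc' (by positivity)
  have t1' := mul_le_mul_of_nonneg_left t1 hκ3
  have t2' := mul_le_mul_of_nonneg_left t2 hκ5
  have t3' := mul_le_mul_of_nonneg_left t3 hκ6
  have hk3 : t ^ 3 ≤ t ^ 2 := by nlinarith [sq_nonneg t]
  have h8 := mul_le_mul_of_nonneg_right hk3 (show 0 ≤ κ5 * (M * y0) + κ6 * (k * y0 * m0) by positivity)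
  have e : t ^ 2 * (M * (1 + κ5 * y0) + m0 + κ3 * k * y0 ^ 2 + κ6 * k * y0 * m0)
      = t ^ 2 * M + t ^ 2 * m0 + κ3 * ((t * k * y0) * (t * y0)) + t ^ 2 * (κ5 * (M * y0) + κ6 * (k * y0 * m0)) := by ring
  have e2 : κ5 * ((t ^ 2 * M) * (t * y0)) + κ6 * ((t * k * y0) * (t ^ 2 * m0)) = t ^ 3 * (κ5 * (M * y0) + κ6 * (k * y0 * m0)) := by
    ring
  rw [e]
  linarith

section
variable {ι : Type*} [Fintype ι]

theorem CappedS_of_chan {l : ι → Fin 3 → ℝ} (h : WSig l) {μ μ₀ : ℝ} (hμ : 0 ≤ μ) (hlt : μ < μ₀) :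
    CappedS μ₀ (chan (-μ) l) := by
  intro t i
  have e := chan_sum (-μ) (l t 0) (l t 1) (l t 2)
  unfold chan
  rw [e]
  have h2 : 0 ≤ μ * l t i := mul_nonneg hμ (h.nonneg t i)
  have hN := h.Npos t
  have : (1 + μ) / 3 * (l t 0 + l t 1 + l t 2) < (1 + μ₀) / 3 * (l t 0 + l t 1 + l t 2) :=
    mul_lt_mul_of_pos_right (by linarith) hN
  have e3 : (1 - -μ) / 3 = (1 + μ) / 3 := by ring
  rw [e3]
  linarith

/-- Values after the channel. -/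
theorem nz_chan {P : SP} (hP : P.Good) {μ : ℝ} (h0 : 0 ≤ μ) (h1 : μ < 1 / 2) (hμh : μ ≤ P.μh)
    (hKS : (P.d : ℝ) * μ ^ 2 ≤ 1) {L : ι → Fin 3 → ℝ} (hW : WSig L) {t : ℝ} (ht0 : 0 ≤ t) (ht1 : t ≤ 1)
    (ha : 3 / 2 * xx L ≤ t * P.a0) (hm : mm L ≤ P.κ * (t * P.a0) ^ 2) :
    3 / 2 * xx (chan (-μ) L) ≤ t * P.y0 ∧ 0 ≤ 3 / 2 * xx (chan (-μ) L)
      ∧ mm (chan (-μ) L) ≤ t ^ 2 * P.m0 ∧ BB (chan (-μ) L) ≤ t * P.b0 := by
  have hdp := hP.d_pos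
  have ha0 := hP.ha0
  have hκ := hP.hκ
  have hX0 : 0 ≤ xx L := xx_nonneg hW
  have hmL0 : 0 ≤ mm L := mm_nonneg hW
  have ex : 3 / 2 * xx (chan (-μ) L) = μ ^ 2 * (3 / 2 * xx L) := by
    rw [xx_chan hW]; ring
  have hμ2 : μ ^ 2 ≤ 1 / (P.d : ℝ) := by
    rw [le_div_iff₀ hdp]; linarith
  have ey : (t * P.a0 : ℝ) * (1 / (P.d : ℝ)) = t * P.y0 := by
    rw [SP.y0_cast]; ring
  refine ⟨?_, by rw [ex]; positivity, ?_, ?_⟩
  · rw [ex, ← ey]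
    calc μ ^ 2 * (3 / 2 * xx L) ≤ (1 / (P.d : ℝ)) * (t * P.a0) :=
          mul_le_mul hμ2 ha (by positivity) (by positivity)
      _ = _ := by ring
  · have hμ4 : μ ^ 4 ≤ 1 / (P.d : ℝ) ^ 2 := by
      have : μ ^ 4 = (μ ^ 2) ^ 2 := by ring
      rw [this]
      have := pow_le_pow_left₀ (sq_nonneg μ) hμ2 2
      rwa [div_pow, one_pow] at this
    rw [mm_chan, SP.m0_cast]
    calc μ ^ 4 * mm L ≤ (1 / (P.d : ℝ) ^ 2) * (P.κ * (t * P.a0) ^ 2) :=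
          mul_le_mul hμ4 hm hmL0 (by positivity)
      _ = _ := by field_simp
  · have h2 := BB_chan_nz hW h0 h1 hP.hT
    rw [SP.b0_cast]
    exact h2.trans (chan_b_bound h0 h1 hμh hP.hμh1 hP.hT hdp hKS hκ ha0 ht0 ht1 (by positivity) hmL0 ha hm)

/-- One level of the scalar recursion. -/
theorem nz_pow {P : SP} (hP : P.Good) {μ₀ μ : ℝ} (hμ₀ : 0 < μ₀) (hN : NegCert2 μ₀ P.β P.θ P.γ P.ρ)
    (hM : MCert μ₀ P.κ3 P.κ5 P.κ6) (h0 : 0 ≤ μ) (h1 : μ < 1 / 2) (hlt : μ < μ₀) (hμh : μ ≤ P.μh)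
    (hKS : (P.d : ℝ) * μ ^ 2 ≤ 1) {L : ι → Fin 3 → ℝ} (hW : WSig L) {t : ℝ} (ht0 : 0 ≤ t) (ht1 : t ≤ 1)
    (ha : 3 / 2 * xx L ≤ t * P.a0) (hm : mm L ≤ P.κ * (t * P.a0) ^ 2) (k : ℕ) (hk : k ≤ P.d) :
    3 / 2 * xx (powS k (chan (-μ) L)) ≤ t * k * P.y0 - t ^ 2 * (P.gM k).1
      ∧ BB (powS k (chan (-μ) L)) ≤ t * k * P.b0
      ∧ mm (powS k (chan (-μ) L)) ≤ t ^ 2 * (P.gM k).2 := by
  have hS : IsSig (chan (-μ) L) := chan_isSig' hW (by linarith) (by linarith)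
  obtain ⟨hy, hy0, hm', hb'⟩ := nz_chan hP h0 h1 hμh hKS hW ht0 ht1 ha hm
  have hdp := hP.d_pos
  have ha0 := hP.ha0
  have hy00 := hP.y0_nonneg
  have hm00 := hP.m0_nonneg
  have hb00 := hP.b0_nonneg
  have hβ := hP.hβ
  have hθ := hP.hθ
  have hγ := hP.hγ
  have hρ := hP.hρ
  have hκ3 := hP.hκ3
  have hκ5 := hP.hκ5
  have hκ6 := hP.hκ6
  have hm'0 : 0 ≤ mm (chan (-μ) L) := mm_nonneg hS.toW
  have hbb0 : 0 ≤ BB (chan (-μ) L) := BB_nonneg hS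
  clear hm ha
  induction k with
  | zero =>
    simp only [SP.gM, Nat.cast_zero, mul_zero, zero_mul, sub_zero, Rat.cast_zero]
    refine ⟨?_, BB_powS_zero_le _, (mm_powS_zero _).le⟩
    have := xx_powS_zero_le (chan (-μ) L)
    linarith
  | succ k ih =>
    obtain ⟨ih1, ih2, ih3⟩ := ih (by omega)
    have hPk : IsSig (powS k (chan (-μ) L)) := powS_isSig hS k
    have hg := hP.hg k (by omega)
    have hMk := hP.M_nonneg k
    have ha'0 : 0 ≤ 3 / 2 * xx (powS k (chan (-μ) L)) := by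
      have := xx_nonneg hPk.toW
      positivity
    have hb'0 : 0 ≤ BB (powS k (chan (-μ) L)) := BB_nonneg hPk
    have hkk : (k : ℝ) + 1 ≤ P.d := by exact_mod_cast hk
    have hk0 : (0 : ℝ) ≤ k := Nat.cast_nonneg k
    have hky : (k : ℝ) * P.y0 ≤ P.a0 := by
      rw [SP.y0_cast]
      have : (k : ℝ) * ((P.a0 : ℝ) / P.d) = (k : ℝ) / P.d * P.a0 := by ring
      rw [this]
      have h6 : (k : ℝ) / P.d ≤ 1 := by rw [div_le_one hdp]; linarith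
      calc (k : ℝ) / P.d * P.a0 ≤ 1 * P.a0 := mul_le_mul_of_nonneg_right h6 ha0.le
        _ = _ := one_mul _
    have hy1 : (P.y0 : ℝ) ≤ P.a0 := by
      rw [SP.y0_cast]
      have h6 : (1 : ℝ) ≤ P.d := by linarith
      exact div_le_self ha0.le h6
    refine ⟨?_, ?_, ?_⟩
    · rw [xx_powS_succ, xx_prod_comm]
      have hcap : Capped μ₀ (chan (-μ) L) :=
        (chan_capped hW h0).mono hlt.le fun t => (hS.toW.Npos t).le
      have h5 := xx_prod_nz hμ₀ hN hPk hS hcap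
      have h5' : 3 / 2 * xx (prodS (powS k (chan (-μ) L)) (chan (-μ) L))
          ≤ 3 / 2 * xx (powS k (chan (-μ) L)) + 3 / 2 * xx (chan (-μ) L)
            - (P.β : ℝ) * ((3 / 2 * xx (powS k (chan (-μ) L))) * (3 / 2 * xx (chan (-μ) L)))
            + P.θ * ((3 / 2 * xx (chan (-μ) L)) * BB (powS k (chan (-μ) L)))
            + P.γ * (mm (powS k (chan (-μ) L)) * (3 / 2 * xx (chan (-μ) L)))
            + P.ρ * ((3 / 2 * xx (powS k (chan (-μ) L))) * mm (chan (-μ) L)) := by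
        have := mul_le_mul_of_nonneg_left h5 (show (0 : ℝ) ≤ 3 / 2 by norm_num)
        refine this.trans (le_of_eq ?_)
        ring
      have hA0 : 0 ≤ t * k * P.y0 - t ^ 2 * (P.gM k).1 := ha'0.trans ih1
      have hAle : t * k * P.y0 - t ^ 2 * ((P.gM k).1 : ℝ) ≤ t * k * P.y0 := by
        have : 0 ≤ t ^ 2 * ((P.gM k).1 : ℝ) := by positivity
        linarith
      have hβA : (P.β : ℝ) * (t * k * P.y0 - t ^ 2 * (P.gM k).1) ≤ 1 := by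
        have h6 : t * k * P.y0 - t ^ 2 * ((P.gM k).1 : ℝ) ≤ P.a0 := by
          refine hAle.trans ?_
          calc t * k * P.y0 = t * (k * P.y0) := by ring
            _ ≤ 1 * P.a0 := mul_le_mul ht1 hky (by positivity) (by norm_num)
            _ = _ := one_mul _
        exact (mul_le_mul_of_nonneg_left h6 hβ).trans hP.hβa
      have hβY : (P.β : ℝ) * (t * P.y0) ≤ 1 := by
        have h6 : t * (P.y0 : ℝ) ≤ P.a0 := by
          calc t * (P.y0 : ℝ) ≤ 1 * P.a0 := mul_le_mul ht1 hy1 hy00 (by norm_num)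
            _ = _ := one_mul _
        exact (mul_le_mul_of_nonneg_left h6 hβ).trans hP.hβa
      have h7 := phi_mono hβ hθ hγ hρ ih1 hy ih2 ih3 hm' hy0 hb'0 hm'0 hA0 (by positivity) (by positivity) hβA hβY
      refine h5'.trans (h7.trans ?_)
      simp only [SP.gM, SP.nxt]
      push_cast
      exact x_alg hβ hθ hγ hρ ht0 ht1 hk0 hy00 hm00 hg hMk
    · rw [BB_powS_succ, BB_prod_comm]
      have h5 := BB_prod_le hPk hS
      have h6 : 0 ≤ BB (powS k (chan (-μ) L)) * BB (chan (-μ) L) := mul_nonneg hb'0 hbb0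
      push_cast
      have e : t * ((k : ℝ) + 1) * P.b0 = t * k * P.b0 + t * P.b0 := by ring
      rw [e]
      linarith
    · rw [mm_powS_succ, mm_prod_comm]
      have h5 := mm_prod_nz hμ₀ hM hPk hS (CappedS_of_chan hW h0 hlt)
      have h5' : mm (prodS (powS k (chan (-μ) L)) (chan (-μ) L))
          ≤ mm (powS k (chan (-μ) L)) + mm (chan (-μ) L)
            + (P.κ3 : ℝ) * ((3 / 2 * xx (powS k (chan (-μ) L))) * (3 / 2 * xx (chan (-μ) L)))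
            + P.κ5 * (mm (powS k (chan (-μ) L)) * (3 / 2 * xx (chan (-μ) L)))
            + P.κ6 * ((3 / 2 * xx (powS k (chan (-μ) L))) * mm (chan (-μ) L)) := by
        refine h5.trans (le_of_eq ?_)
        ring
      refine h5'.trans ?_
      have hA1 : 3 / 2 * xx (powS k (chan (-μ) L)) ≤ t * k * P.y0 := by
        have : 0 ≤ t ^ 2 * ((P.gM k).1 : ℝ) := by positivity
        linarith
      simp only [SP.gM, SP.nxt]
      push_cast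
      exact m_alg hκ3 hκ5 hκ6 ht0 ht1 hk0 hy00 hm00 hMk hA1 hy ih3 hm' hy0 hm'0

/-- One level of the tree. -/
theorem nz_level {P : SP} (hP : P.Good) {μ₀ μ : ℝ} (hμ₀ : 0 < μ₀) (hN : NegCert2 μ₀ P.β P.θ P.γ P.ρ)
    (hM : MCert μ₀ P.κ3 P.κ5 P.κ6) (h0 : 0 ≤ μ) (h1 : μ < 1 / 2) (hlt : μ < μ₀) (hμh : μ ≤ P.μh)
    (hKS : (P.d : ℝ) * μ ^ 2 ≤ 1) {L : ι → Fin 3 → ℝ} (hW : WSig L) {A : ℝ} (hA0 : 0 ≤ A) (hA1 : A ≤ P.a0)
    (ha : 3 / 2 * xx L ≤ A) (hm : mm L ≤ P.κ * A ^ 2) :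
    3 / 2 * xx (powS P.d (chan (-μ) L)) ≤ A - P.ξ * A ^ 2
      ∧ mm (powS P.d (chan (-μ) L)) ≤ P.κ * (A - P.ξ * A ^ 2) ^ 2 := by
  have ha0 := hP.ha0
  have hd := hP.d_pos
  set t := A / (P.a0 : ℝ) with ht
  have hAe : A = t * P.a0 := by rw [ht]; field_simp
  have ht0 : 0 ≤ t := by positivity
  have ht1 : t ≤ 1 := by rw [ht, div_le_one ha0]; exact hA1
  have h2 := nz_pow hP hμ₀ hN hM h0 h1 hlt hμh hKS hW ht0 ht1 (by rw [← hAe]; exact ha) (by rw [← hAe]; exact hm)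
    P.d le_rfl
  obtain ⟨h3, -, h5⟩ := h2
  have ey : t * (P.d : ℝ) * P.y0 = A := by
    rw [SP.y0_cast, hAe]; field_simp
  rw [ey] at h3
  constructor
  · refine h3.trans ?_
    have := mul_le_mul_of_nonneg_left hP.hξg (sq_nonneg t)
    rw [hAe]
    nlinarith [this]
  · refine h5.trans ?_
    have h6 := mul_le_mul_of_nonneg_left hP.hM (sq_nonneg t)
    refine h6.trans ?_
    have hξ := hP.hξ
    have hκ := hP.hκ
    have h7 : (P.ξ : ℝ) * P.a0 ≤ 1 := hP.hξa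
    have hq : 0 ≤ 1 - (P.ξ : ℝ) * P.a0 := by linarith
    have hq2 : 1 - (P.ξ : ℝ) * P.a0 ≤ 1 - P.ξ * A := by
      have := mul_le_mul_of_nonneg_left hA1 hξ.le
      linarith
    have hq3 : (1 - (P.ξ : ℝ) * P.a0) ^ 2 ≤ (1 - P.ξ * A) ^ 2 := pow_le_pow_left₀ hq hq2 2
    have e1 : A - P.ξ * A ^ 2 = A * (1 - P.ξ * A) := by ring
    rw [e1]
    have e2 : t ^ 2 * ((P.κ : ℝ) * (P.a0 : ℝ) ^ 2 * (1 - P.ξ * P.a0) ^ 2)
        = (P.κ : ℝ) * A ^ 2 * (1 - P.ξ * P.a0) ^ 2 := by rw [hAe]; ring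
    rw [e2]
    have e3 : (P.κ : ℝ) * (A * (1 - P.ξ * A)) ^ 2 = (P.κ : ℝ) * A ^ 2 * (1 - P.ξ * A) ^ 2 := by ring
    rw [e3]
    exact mul_le_mul_of_nonneg_left hq3 (by positivity)

end

/-- The comparison sequence. -/
def SP.abar (P : SP) : ℕ → ℝ
  | 0 => P.a0
  | j + 1 => SP.abar P j - P.ξ * SP.abar P j ^ 2

theorem SP.Good.abar_bounds {P : SP} (hP : P.Good) (j : ℕ) : 0 ≤ P.abar j ∧ P.abar j ≤ P.a0 := by
  induction j with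
  | zero => exact ⟨hP.ha0.le, le_rfl⟩
  | succ j ih =>
    obtain ⟨h0, h1⟩ := ih
    simp only [SP.abar]
    have hξ := hP.hξ
    have h2 : (P.ξ : ℝ) * P.abar j ≤ 1 := (mul_le_mul_of_nonneg_left h1 hξ.le).trans hP.hξa
    have e : P.abar j - P.ξ * P.abar j ^ 2 = P.abar j * (1 - P.ξ * P.abar j) := by ring
    constructor
    · rw [e]; exact mul_nonneg h0 (by linarith)
    · have : 0 ≤ (P.ξ : ℝ) * P.abar j ^ 2 := by positivity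
      linarith

theorem SP.Good.abar_tendsto {P : SP} (hP : P.Good) : Tendsto P.abar atTop (𝓝 0) :=
  tendsto_of_quad hP.hξ (fun n => (hP.abar_bounds n).1) fun n => by
    simp only [SP.abar]
    exact le_rfl

/-- The bound along the levels of the tree, from a start at level `n₀`. -/
theorem nz_levels {P : SP} (hP : P.Good) {μ₀ μ : ℝ} (hμ₀ : 0 < μ₀) (hN : NegCert2 μ₀ P.β P.θ P.γ P.ρ)
    (hM : MCert μ₀ P.κ3 P.κ5 P.κ6) (h0 : 0 ≤ μ) (h1 : μ < 1 / 2) (hlt : μ < μ₀) (hμh : μ ≤ P.μh)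
    (hKS : (P.d : ℝ) * μ ^ 2 ≤ 1) {n₀ : ℕ} (ha : 3 / 2 * xx (lev P.d (-μ) n₀) ≤ P.a0)
    (hm : mm (lev P.d (-μ) n₀) ≤ P.κ * (P.a0 : ℝ) ^ 2) (j : ℕ) :
    3 / 2 * xx (lev P.d (-μ) (n₀ + j)) ≤ P.abar j ∧ mm (lev P.d (-μ) (n₀ + j)) ≤ P.κ * P.abar j ^ 2 := by
  have hW : ∀ n, WSig (lev P.d (-μ) n) := lev_wsig' (by linarith) (by linarith)
  induction j with
  | zero => exact ⟨ha, hm⟩
  | succ j ih =>
    obtain ⟨h3, h4⟩ := ih
    obtain ⟨h5, h6⟩ := hP.abar_bounds j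
    have := nz_level hP hμ₀ hN hM h0 h1 hlt hμh hKS (hW (n₀ + j)) h5 h6 h3 h4
    rw [← lev_succ] at this
    exact this

/-- Conclusion: nonreconstruction for the eigenvalue `-μ`. -/
theorem nz_advantage {P : SP} (hP : P.Good) {μ₀ μ : ℝ} (hμ₀ : 0 < μ₀) (hN : NegCert2 μ₀ P.β P.θ P.γ P.ρ)
    (hM : MCert μ₀ P.κ3 P.κ5 P.κ6) (h0 : 0 ≤ μ) (h1 : μ < 1 / 2) (hlt : μ < μ₀) (hμh : μ ≤ P.μh)
    (hKS : (P.d : ℝ) * μ ^ 2 ≤ 1) {n₀ : ℕ} (ha : 3 / 2 * xx (lev P.d (-μ) n₀) ≤ P.a0)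
    (hm : mm (lev P.d (-μ) n₀) ≤ P.κ * (P.a0 : ℝ) ^ 2) :
    Tendsto (advantage P.d 3 (-μ)) atTop (𝓝 0) := by
  have hW : ∀ n, WSig (lev P.d (-μ) n) := lev_wsig' (by linarith) (by linarith)
  refine advantage_tendsto_of_xx hW ?_
  have h2 := fun j => (nz_levels hP hμ₀ hN hM h0 h1 hlt hμh hKS ha hm j).1
  have h3 : Tendsto (fun j => xx (lev P.d (-μ) (j + n₀))) atTop (𝓝 0) := by
    have h4 : Tendsto (fun j => 2 / 3 * P.abar j) atTop (𝓝 0) := by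
      have := hP.abar_tendsto.const_mul (2 / 3)
      simpa using this
    refine squeeze_zero (fun j => xx_nonneg (hW _)) (fun j => ?_) h4
    have := h2 j
    rw [add_comm n₀ j] at this
    linarith
  exact (tendsto_add_atTop_iff_nat n₀).1 h3

end Vale.Agent.Lib.P154
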