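import Vale.Agent.Lib.P154.NZ.E
import Vale.Agent.Lib.P154.Lat.Iter

/-!
Assembling: the dominating law at some level and the near-zero recursion.
-/

noncomputable section

open Filter Topology

namespace Vale.Agent.Lib.P154

open Vale.Agent.Lib.P154.Lat Vale.Agent.Lib.Common.Kron

/-- The first certificate at the cap `1 / 2`. -/
theorem negCert2_half : NegCert2 (1 / 2) ((5 / 2 : ℚ) : ℝ) ((87 / 100 : ℚ) : ℝ) ((67 / 100 : ℚ) : ℝ) ((9 : ℚ) : ℝ) := by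
  have h := negCert2_of_check (mn := 1) (md := 2) (L := 100) (b := 250) (t := 87) (g := 67) (r := 900) (D1 := 9) (D2 := 12)
    (k := 105) (rad := [19, 19, 20, 20]) (by norm_num) (by norm_num) (by decide +kernel)
  have e1 : (((1 : ℕ) : ℝ) / (2 : ℕ)) = 1 / 2 := by norm_num
  have e2 : (((250 : ℕ) : ℝ) / (100 : ℕ)) = ((5 / 2 : ℚ) : ℝ) := by norm_num
  have e3 : (((87 : ℕ) : ℝ) / (100 : ℕ)) = ((87 / 100 : ℚ) : ℝ) := by norm_num
  have e4 : (((67 : ℕ) : ℝ) / (100 : ℕ)) = ((67 / 100 : ℚ) : ℝ) := by norm_num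
  have e5 : (((900 : ℕ) : ℝ) / (100 : ℕ)) = ((9 : ℚ) : ℝ) := by norm_num
  rwa [e1, e2, e3, e4, e5] at h

/-- The second certificate at the cap `1 / 2`. -/
theorem mCert_half : MCert (1 / 2) ((19 / 4 : ℚ) : ℝ) ((4 : ℚ) : ℝ) ((4 : ℚ) : ℝ) := by
  have h := mCert_of_check (mn := 1) (md := 2) (L := 4) (K3 := 19) (K5 := 16) (K6 := 16) (D := 6) (k := 135)
    (rad := [20, 20, 20, 20]) (by norm_num) (by norm_num) (by norm_num) (by decide +kernel) (by decide +kernel)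
  have e1 : (((1 : ℕ) : ℝ) / (2 : ℕ)) = 1 / 2 := by norm_num
  have e2 : (((19 : ℕ) : ℝ) / (4 : ℕ)) = ((19 / 4 : ℚ) : ℝ) := by norm_num
  have e3 : (((16 : ℕ) : ℝ) / (4 : ℕ)) = ((4 : ℚ) : ℝ) := by norm_num
  rwa [e1, e2, e3] at h

/-- The scalar data with the fixed constants of the two certificates. -/
def SP.base (d : ℕ) (μh T κ a0 ξ : ℚ) : SP :=
  ⟨d, 5 / 2, 87 / 100, 67 / 100, 9, 19 / 4, 4, 4, μh, T, κ, a0, ξ⟩

namespace Lat.Cfg

variable {C : Cfg}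

theorem iterQ_add (C : Cfg) (a b Q : ℕ) : iterQ C (a + b) Q = iterQ C b (iterQ C a Q) := by
  induction b with
  | zero => rfl
  | succ b ih =>
    change C.stepQ (iterQ C (a + b) Q) = C.stepQ (iterQ C b (iterQ C a Q))
    rw [ih]

/-- Joining chunks of a run. -/
theorem iter_join {a b Q Q' Q'' : ℕ} (h1 : Nat.beq (iterQ C a Q) Q' = true) (h2 : Nat.beq (iterQ C b Q') Q'' = true) :
    Nat.beq (iterQ C (a + b) Q) Q'' = true := by
  have e1 := Nat.eq_of_beq_eq_true h1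
  rw [iterQ_add, e1]
  exact h2

theorem init_join {b Q0 Q'' : ℕ} (h0 : Nat.beq C.initQ Q0 = true) (h : Nat.beq (iterQ C b Q0) Q'' = true) :
    Nat.beq (iterQ C b C.initQ) Q'' = true := by
  rw [Nat.eq_of_beq_eq_true h0]
  exact h

/-! ### A check of the masses that avoids long numbers -/

/-- A digit, by a shift. -/
def digS (W R k : ℕ) : ℕ := (R >>> (W * k)) % 2 ^ W

/-- A row of digits. -/
def rowS (W K R a : ℕ) : ℕ := (R >>> (W * K * a)) % 2 ^ (W * K)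

theorem digS_eq (W R k : ℕ) : digS W R k = dig (2 ^ W) R k := by
  unfold digS dig
  rw [Nat.shiftRight_eq_div_pow, pow_mul]

theorem digS_row {W K R a b : ℕ} (hb : b < K) : digS W (rowS W K R a) b = dig (2 ^ W) R (K * a + b) := by
  rw [← digS_eq]
  unfold digS rowS
  apply Nat.eq_of_testBit_eq
  intro i
  simp only [Nat.testBit_mod_two_pow, Nat.testBit_shiftRight]
  by_cases hi : i < W
  · have h1 : W * b + i < W * K := by
      have : W * (b + 1) ≤ W * K := Nat.mul_le_mul_left _ (by omega)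
      rw [Nat.mul_add, Nat.mul_one] at this
      omega
    have e : W * K * a + (W * b + i) = W * (K * a + b) + i := by ring
    simp only [hi, decide_true, Bool.true_and, h1, e]
  · simp [hi]

theorem allB_of {n : ℕ} {f : ℕ → Bool} (h : ∀ m, m < n → f m = true) : allB n f = true := by
  induction n with
  | zero => rfl
  | succ n ih =>
    change (f n && allB n f) = true
    rw [Bool.and_eq_true]
    exact ⟨h n (by omega), ih fun m hm => h m (by omega)⟩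

/-- The masses on one row. -/
def massRow (C : Cfg) (j r0 r1 r2 : ℕ) : Bool :=
  allB (C.I + 1) fun i =>
    guardB C.U C.z C.K C.o (i + C.K * j) &&
    Nat.ble (2 ^ C.F * pwN C.r C.s C.U (e1N C.U C.z C.o ((i + C.K * j) % C.K) ((i + C.K * j) / C.K)))
      (digS C.W r0 (C.K - 1 - i) * (C.r ^ C.U * C.s ^ (2 * C.U))) &&
    Nat.ble (2 ^ C.F * pwN C.r C.s C.U (e2N C.U C.z C.o ((i + C.K * j) % C.K)))
      (digS C.W r1 (C.K - 1 - i) * (C.r ^ C.U * C.s ^ (2 * C.U))) &&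
    Nat.ble (2 ^ C.F * pwN C.r C.s C.U (e2N C.U C.z C.o ((i + C.K * j) / C.K)))
      (digS C.W r2 (C.K - 1 - i) * (C.r ^ C.U * C.s ^ (2 * C.U)))

/-- The check of the masses, row by row. -/
def massFast (C : Cfg) : Bool :=
  allB C.J fun j => massRow C j (rowS C.W C.K C.R0 (C.J - 1 - j)) (rowS C.W C.K C.R1 (C.J - 1 - j))
    (rowS C.W C.K C.R2 (C.J - 1 - j))

theorem massOK_of_fast (hI : C.I < C.K) (h : C.massFast = true) : C.massOK = true := by
  refine allB_of fun j hj => allB_of fun i hi => ?_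
  have e1 := allB_spec h _ hj
  have e2 := allB_spec e1 _ hi
  have hi' : i < C.K := by omega
  have eK : C.K * C.J - 1 - (i + C.K * j) = C.K * (C.J - 1 - j) + (C.K - 1 - i) := by
    have h1 : C.K * C.J = C.K * (C.J - 1 - j) + C.K * j + C.K := by
      have : C.J = (C.J - 1 - j) + j + 1 := by omega
      conv_lhs => rw [this]
      ring
    omega
  have hb : C.K - 1 - i < C.K := by omega
  simp only [digS_row hb, ← eK] at e2
  exact e2

theorem tableOK_of (h : checkT C.okS C.trie 0 0 = true) (h0 : checkT (C.okC 0) C.c0 0 0 = true)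
    (h1 : checkT (C.okC 1) C.c1 0 0 = true) (h2 : checkT (C.okC 2) C.c2 0 0 = true) : C.tableOK = true := by
  simp only [tableOK, h, h0, h1, h2, Bool.and_self]

/-- Reading the last law. -/
theorem far_read (h : C.Valid) (hf : Follows C C) {k Qf : ℕ} {tA tM : Trie}
    (hit : Nat.beq (iterQ C k C.initQ) Qf = true)
    (hA : checkT (fun k _ _ _ c1 c2 c3 => okA C.r C.s C.U C.z C.K (C.d * C.o) C.E k c1 c2 c3) tA 0 0 = true)
    (hM : checkT (fun k _ _ _ c1 c2 c3 => okM C.r C.s C.U C.z C.K (C.d * C.o) C.E k c1 c2 c3) tM 0 0 = true)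
    {VA VM : ℕ} (hVA : Nat.ble VA (val C.W tA (C.powT Qf)) = true)
    (hVM : Nat.ble VM (val C.W tM (C.powT Qf)) = true)
    {μ : ℝ} (h0 : 0 ≤ μ) (h1 : μ < 1 / 2) (hμ : μ ≤ C.mu) :
    3 / 2 * xx (lev C.d (-μ) (k + 1)) ≤ 1 - (VA : ℝ) / 2 ^ (C.D + C.E + 1)
      ∧ mm (lev C.d (-μ) (k + 1)) ≤ 1 - (VM : ℝ) / (3 * 2 ^ (C.D + C.E)) := by
  have e : iterQ C k C.initQ = Qf := Nat.eq_of_beq_eq_true hit
  have h2 : C.LInv μ 0 C.initQ := follows_inv hf (initQ_lev h h0 h1 hμ)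
  have h3 := iterQ_lev h hf h0 h1 hμ h2 k
  rw [e, Nat.zero_add] at h3
  obtain ⟨r1, r2⟩ := final_read h h0 h1 h3 hA hM
  have hv1 : (VA : ℝ) ≤ (val C.W tA (C.powT Qf) : ℝ) := by
    exact_mod_cast Nat.le_of_ble_eq_true hVA
  have hv2 : (VM : ℝ) ≤ (val C.W tM (C.powT Qf) : ℝ) := by
    exact_mod_cast Nat.le_of_ble_eq_true hVM
  have hc : ∀ V : ℝ, C.cc * (V / 2 ^ C.E) = V / 2 ^ (C.D + C.E) := by
    intro V
    unfold cc
    rw [pow_add]
    field_simp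
  rw [hc] at r1 r2
  have p1 : (0 : ℝ) < 2 ^ (C.D + C.E) := by positivity
  constructor
  · have e1 : (VA : ℝ) / 2 ^ (C.D + C.E + 1) = (1 / 2) * ((VA : ℝ) / 2 ^ (C.D + C.E)) := by
      rw [pow_succ]
      field_simp
    rw [e1]
    have := div_le_div_of_nonneg_right hv1 p1.le
    linarith
  · have e1 : (VM : ℝ) / (3 * 2 ^ (C.D + C.E)) = (1 / 3) * ((VM : ℝ) / 2 ^ (C.D + C.E)) := by
      field_simp
    rw [e1]
    have := div_le_div_of_nonneg_right hv2 p1.le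
    linarith

end Lat.Cfg

open Lat.Cfg in
/-- Rational conditions for closing. -/
def closeOK (P : SP) (C : Lat.Cfg) (VA VM : ℕ) : Bool :=
  Nat.beq C.d P.d && decide ((C.p : ℚ) / C.q = P.μh) && Nat.ble (C.q ^ 2) (P.d * C.p ^ 2) && Nat.ble (2 * C.p + 1) C.q
    && decide ((1 : ℚ) - (VA : ℚ) / 2 ^ (C.D + C.E + 1) ≤ P.a0)
    && decide ((1 : ℚ) - (VM : ℚ) / (3 * 2 ^ (C.D + C.E)) ≤ P.κ * P.a0 ^ 2)

open Lat.Cfg in
/-- The final form. -/
theorem far_close {P : SP} {C : Lat.Cfg} (hP : P.check = true) (h : C.Valid) (hf : Lat.Cfg.Follows C C) {k Qf : ℕ}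
    {tA tM : Lat.Trie}
    (hit : Nat.beq (iterQ C k C.initQ) Qf = true)
    (hA : Lat.checkT (fun k _ _ _ c1 c2 c3 => Lat.okA C.r C.s C.U C.z C.K (C.d * C.o) C.E k c1 c2 c3) tA 0 0 = true)
    (hM : Lat.checkT (fun k _ _ _ c1 c2 c3 => Lat.okM C.r C.s C.U C.z C.K (C.d * C.o) C.E k c1 c2 c3) tM 0 0 = true)
    {VA VM : ℕ} (hVA : Nat.ble VA (Lat.val C.W tA (C.powT Qf)) = true)
    (hVM : Nat.ble VM (Lat.val C.W tM (C.powT Qf)) = true)
    (hc : closeOK P C VA VM = true)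
    (hN : NegCert2 (1 / 2) P.β P.θ P.γ P.ρ) (hMC : MCert (1 / 2) P.κ3 P.κ5 P.κ6)
    {μ : ℝ} (h0 : 0 < μ) (hKS : (P.d : ℝ) * μ ^ 2 ≤ 1) :
    Tendsto (advantage P.d 3 (-μ)) atTop (𝓝 0) := by
  have hG := P.good_of_check hP
  simp only [closeOK, Bool.and_eq_true, Nat.ble_eq, decide_eq_true_eq] at hc
  obtain ⟨⟨⟨⟨⟨hd, hmu⟩, hq⟩, h2p⟩, ha⟩, hm⟩ := hc
  have hd' : C.d = P.d := Nat.eq_of_beq_eq_true hd
  have F := h.facts
  have hqpos : (0 : ℝ) < C.q := by exact_mod_cast F.hq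
  have hmu' : C.mu = P.μh := by
    unfold Lat.Cfg.mu
    rw [← hmu]
    push_cast
    rfl
  have hμle : μ ≤ C.mu := by
    have h3 : ((C.q : ℝ)) ^ 2 ≤ (P.d : ℝ) * (C.p : ℝ) ^ 2 := by exact_mod_cast hq
    have hdpos : (0 : ℝ) < P.d := hG.d_pos
    have h4 : μ ^ 2 ≤ C.mu ^ 2 := by
      unfold Lat.Cfg.mu
      rw [div_pow, le_div_iff₀ (by positivity)]
      have h5 : (P.d : ℝ) * (μ ^ 2 * (C.q : ℝ) ^ 2) ≤ (P.d : ℝ) * (C.p : ℝ) ^ 2 := by
        calc (P.d : ℝ) * (μ ^ 2 * (C.q : ℝ) ^ 2) = ((P.d : ℝ) * μ ^ 2) * (C.q : ℝ) ^ 2 := by ring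
          _ ≤ 1 * (C.q : ℝ) ^ 2 := mul_le_mul_of_nonneg_right hKS (sq_nonneg _)
          _ = (C.q : ℝ) ^ 2 := one_mul _
          _ ≤ _ := h3
      exact le_of_mul_le_mul_left h5 hdpos
    have h6 : 0 ≤ C.mu := by
      unfold Lat.Cfg.mu
      positivity
    exact abs_le_of_sq_le_sq' h4 h6 |>.2
  have hmlt : C.mu < 1 / 2 := by
    unfold Lat.Cfg.mu
    rw [div_lt_iff₀ hqpos]
    have : (2 * C.p + 1 : ℝ) ≤ C.q := by exact_mod_cast h2p
    linarith
  have hlt : μ < 1 / 2 := lt_of_le_of_lt hμle hmlt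
  obtain ⟨r1, r2⟩ := Lat.Cfg.far_read (μ := μ) h hf hit hA hM hVA hVM h0.le hlt hμle
  rw [hd'] at r1 r2
  have ha' : (1 : ℝ) - (VA : ℝ) / 2 ^ (C.D + C.E + 1) ≤ P.a0 := by
    have := (Rat.cast_le (K := ℝ)).mpr ha
    push_cast at this
    exact this
  have hm' : (1 : ℝ) - (VM : ℝ) / (3 * 2 ^ (C.D + C.E)) ≤ P.κ * (P.a0 : ℝ) ^ 2 := by
    have := (Rat.cast_le (K := ℝ)).mpr hm
    push_cast at this
    exact this
  exact nz_advantage hG (by norm_num) hN hMC h0.le hlt hlt (by rw [← hmu']; exact hμle) hKS (r1.trans ha') (r2.trans hm')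

end Vale.Agent.Lib.P154
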